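import Vale.Agent.P025.R2.H837.LemG

/-!
# Galois theory inside a fixed extension: fixed elements of an automorphism of a subfield
-/

open TensorProduct P025H544 IntermediateField

namespace P025H837

section fixed

variable {K N : Type*} [Field K] [Field N] [Algebra K N]

/-- the elements of `W` fixed by a set of automorphisms, as a subfield of `N` -/
noncomputable def fixN (W : IntermediateField K N) (H : Subgroup (W ≃ₐ[K] W)) :
    IntermediateField K N := lift (fixedField H)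

lemma mem_fixN {W : IntermediateField K N} {H : Subgroup (W ≃ₐ[K] W)} {x : N} :
    x ∈ fixN W H ↔ ∃ hx : x ∈ W, ∀ g ∈ H, g ⟨x, hx⟩ = ⟨x, hx⟩ := by
  constructor
  · intro h
    have hx : x ∈ W := lift_le (fixedField H) h
    refine ⟨hx, fun g hg => ?_⟩
    have h1 : (⟨x, hx⟩ : W) ∈ fixedField H := (mem_lift (⟨x, hx⟩ : W)).1 h
    exact h1 ⟨g, hg⟩
  · rintro ⟨hx, h⟩
    have h1 : (⟨x, hx⟩ : W) ∈ fixedField H := fun g => h g.1 g.2
    exact (mem_lift (⟨x, hx⟩ : W)).2 h1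

lemma fixN_le (W : IntermediateField K N) (H : Subgroup (W ≃ₐ[K] W)) : fixN W H ≤ W :=
  lift_le _

/-- an automorphism all of whose fixed elements are everything -/
lemma eq_one_of_le_fixN {W : IntermediateField K N} {g : W ≃ₐ[K] W} {H : Subgroup (W ≃ₐ[K] W)}
    (hg : g ∈ H) (h : W ≤ fixN W H) : g = 1 := by
  apply AlgEquiv.ext
  intro x
  obtain ⟨hx, h1⟩ := mem_fixN.1 (h x.2)
  exact h1 g hg

/-- degrees of composita: if a prime `r` divides the degree of a compositum of finitely many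
Galois extensions, it divides the degree of one of them -/
lemma exists_dvd_of_dvd_finrank {ι : Type*} (L : ι → IntermediateField K N)
    (hfin : ∀ i, FiniteDimensional K (L i)) (hgal : ∀ i, IsGalois K (L i))
    (W : IntermediateField K N) [FiniteDimensional K W] [IsGalois K W] (hW : W = ⨆ i, L i)
    {r : ℕ} (hr : r.Prime) (hrW : r ∣ Module.finrank K W) : ∃ i, r ∣ Module.finrank K (L i) := by
  classical
  have := Fact.mk hr
  have hfinG : Finite (W ≃ₐ[K] W) := inferInstance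
  have := Fintype.ofFinite (W ≃ₐ[K] W)
  rw [← IsGalois.card_aut_eq_finrank K W, Nat.card_eq_fintype_card] at hrW
  obtain ⟨g, hg⟩ := exists_prime_orderOf_dvd_card r hrW
  by_contra hcon
  push Not at hcon
  have hone : g = 1 := by
    apply eq_one_of_le_fixN (Subgroup.mem_zpowers g)
    refine hW.le.trans (iSup_le fun i => ?_)
    have hi : L i ≤ W := (le_iSup L i).trans hW.ge
    intro x hx
    rw [mem_fixN]
    refine ⟨hi hx, ?_⟩
    -- the restriction of `g` to `L i`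
    let Li : IntermediateField K W := restrict hi
    have e1 : L i ≃ₐ[K] Li := restrictAlgEquiv hi
    have hfd : FiniteDimensional K Li := e1.toLinearEquiv.finiteDimensional
    have hGi : IsGalois K Li := IsGalois.of_algEquiv e1
    have hNi : Normal K Li := inferInstance
    let gi := AlgEquiv.restrictNormalHom Li g
    have h1 : orderOf gi ∣ r := by
      rw [← hg]
      exact orderOf_map_dvd _ g
    have h2 : orderOf gi ∣ Module.finrank K (L i) := by
      rw [e1.toLinearEquiv.finrank_eq, ← IsGalois.card_aut_eq_finrank K Li]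
      exact orderOf_dvd_natCard gi
    have h3 : orderOf gi = 1 := by
      rcases (Nat.dvd_prime hr).1 h1 with h4 | h4
      · exact h4
      · rw [h4] at h2
        exact absurd h2 (hcon i)
    have h4 : gi = 1 := orderOf_eq_one_iff.1 h3
    have hx' : (⟨x, hi hx⟩ : W) ∈ Li := (mem_restrict hi _).2 hx
    have h5 : g ⟨x, hi hx⟩ = ⟨x, hi hx⟩ := by
      have h6 := AlgEquiv.restrictNormalHom_apply Li g ⟨⟨x, hi hx⟩, hx'⟩
      rw [show AlgEquiv.restrictNormalHom Li g = 1 from h4] at h6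
      exact h6.symm
    intro g' hg'
    obtain ⟨n, rfl⟩ := Subgroup.mem_zpowers_iff.1 hg'
    have h7 : g ∈ MulAction.stabilizer (W ≃ₐ[K] W) (⟨x, hi hx⟩ : W) := h5
    exact (MulAction.stabilizer (W ≃ₐ[K] W) (⟨x, hi hx⟩ : W)).zpow_mem h7 n
  rw [hone, orderOf_one] at hg
  exact hr.one_lt.ne hg

end fixed

section power

variable {F A L L' : Type*} [Field F] [Field A] [Field L] [Field L'] [Algebra F A] [Algebra F L]
  [Algebra F L']

/-- `1 ⊗ x` lies in no point -/
lemma one_tmul_notMem {x : L} (hx : x ≠ 0) (P : Pt F A L) : (1 : A) ⊗ₜ[F] x ∉ P.asIdeal := by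
  intro h
  apply P.2.ne_top
  rw [Ideal.eq_top_iff_one]
  have h1 := P.asIdeal.mul_mem_left ((1 : A) ⊗ₜ[F] x⁻¹) h
  rwa [Algebra.TensorProduct.tmul_mul_tmul, mul_one, inv_mul_cancel₀ hx] at h1

/-- `b` is not an `ℓ`-th power at the point `P` -/
def NotPow (ℓ : ℕ) (F A : Type*) {L : Type*} [Field F] [Field A] [Field L] [Algebra F A]
    [Algebra F L] (b : L) (P : Pt F A L) : Prop :=
  ∀ z : A ⊗[F] L, z ^ ℓ - (1 : A) ⊗ₜ[F] b ∉ P.asIdeal

/-- being a non-power is preserved by extensions of degree prime to `ℓ` -/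
lemma NotPow.ext {ℓ : ℕ} {G : Type*} [Group G] [Finite G] [MulSemiringAction G L']
    [SMulCommClass G F L'] [Algebra.IsAlgebraic F L] [Algebra.IsAlgebraic F L'] (f : L →ₐ[F] L')
    (hfix : ∀ (g : G) (l : L), g • f l = f l)
    (hinv : ∀ x : L', (∀ g : G, g • x = x) → ∃ l, f l = x) (hG : (Nat.card G).Coprime ℓ)
    {b : L} (hb : b ≠ 0) {P : Pt F A L'} (h : NotPow ℓ F A b (ptMap F A f P)) :
    NotPow ℓ F A (f b) P := by
  classical
  intro z hz
  have hInv : IsInv (rhoT F A L' G) (tL F A f).toRingHom := isInv_tensor f hfix hinv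
  have hz' : z ^ ℓ - (tL F A f).toRingHom ((1 : A) ⊗ₜ[F] b) ∈ P.asIdeal := by
    change z ^ ℓ - tL F A f ((1 : A) ⊗ₜ[F] b) ∈ P.asIdeal
    rwa [tL_tmul]
  obtain ⟨a, ha⟩ := hInv.norm (isMaximal_pt P) hz'
  set n := Nat.card (stab (rhoT F A L' G) P) with hn
  have hcop : n.Coprime ℓ := Nat.Coprime.coprime_dvd_left (Subgroup.card_subgroup_dvd_card _) hG
  rw [← map_sub] at ha
  have ha' : a ^ ℓ - ((1 : A) ⊗ₜ[F] b) ^ n ∈ (ptMap F A f P).asIdeal := ha
  set Q := ptMap F A f P with hQ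
  have hmax : Q.asIdeal.IsMaximal := isMaximal_pt Q
  let k := (A ⊗[F] L) ⧸ Q.asIdeal
  let _ : Field k := Ideal.Quotient.field Q.asIdeal
  let mk : (A ⊗[F] L) →+* k := Ideal.Quotient.mk Q.asIdeal
  have h1 : mk a ^ ℓ = mk ((1 : A) ⊗ₜ[F] b) ^ n := by
    rw [← map_pow, ← map_pow]
    exact Ideal.Quotient.eq.2 ha'
  have hb0 : mk ((1 : A) ⊗ₜ[F] b) ≠ 0 := by
    intro h2
    exact one_tmul_notMem hb Q (Ideal.Quotient.eq_zero_iff_mem.1 h2)
  -- Bezout
  have hbez : (1 : ℤ) = n * Nat.gcdA n ℓ + ℓ * Nat.gcdB n ℓ := by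
    have h2 := Nat.gcd_eq_gcd_ab n ℓ
    rw [Nat.Coprime.gcd_eq_one hcop] at h2
    exact_mod_cast h2
  set u := Nat.gcdA n ℓ
  set v := Nat.gcdB n ℓ
  have h3 : mk ((1 : A) ⊗ₜ[F] b) = (mk a ^ u * mk ((1 : A) ⊗ₜ[F] b) ^ v) ^ ℓ := by
    have h4 : (mk a ^ u) ^ ℓ = (mk ((1 : A) ⊗ₜ[F] b)) ^ (n * u : ℤ) := by
      rw [← zpow_natCast (mk a ^ u), ← zpow_mul, mul_comm u, zpow_mul, zpow_natCast, h1, zpow_mul,
        zpow_natCast]
    rw [mul_pow, h4, ← zpow_natCast (mk ((1 : A) ⊗ₜ[F] b) ^ v), ← zpow_mul, mul_comm v,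
      ← zpow_add₀ hb0, ← hbez, zpow_one]
  obtain ⟨c, hc⟩ := Ideal.Quotient.mk_surjective (I := Q.asIdeal)
    (mk a ^ u * mk ((1 : A) ⊗ₜ[F] b) ^ v)
  apply h c
  rw [← Ideal.Quotient.eq]
  rw [map_pow, hc]
  exact h3.symm

end power

end P025H837
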