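import Vale.Agent.P025.R2.H837.App

/-!
# G-LEMG with degrees dividing powers of `M`
-/

open TensorProduct P025H544 IntermediateField

namespace P025H837

lemma dvd_pow_of_primes {n m : ℕ} (hn : n ≠ 0) (h : ∀ r : ℕ, r.Prime → r ∣ n → r ∣ m) :
    ∃ k, n ∣ m ^ k := by
  refine ⟨n, ?_⟩
  by_cases hm : m = 0
  · subst hm
    rw [zero_pow hn]
    exact dvd_zero n
  · rw [← Nat.factorization_le_iff_dvd hn (pow_ne_zero _ hm)]
    intro p
    rw [Nat.factorization_pow, Finsupp.smul_apply, smul_eq_mul]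
    by_cases hp : p.Prime ∧ p ∣ n
    · have h1 : 0 < m.factorization p := hp.1.factorization_pos_of_dvd hm (h p hp.1 hp.2)
      have h2 : n.factorization p < n := Nat.factorization_lt p hn
      exact h2.le.trans (Nat.le_mul_of_pos_right n h1)
    · have h3 : n.factorization p = 0 := by
        by_cases hp1 : p.Prime
        · exact Nat.factorization_eq_zero_of_not_dvd fun h4 => hp ⟨hp1, h4⟩
        · exact Nat.factorization_eq_zero_of_not_prime n hp1
      rw [h3]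
      exact Nat.zero_le _

/-- **Lemma G** with degrees dividing powers of a given number `M` prime to `ℓ`. -/
theorem lemG_exists_deg {F F1 F2 F0 K N : Type*} [Field F] [Field F1] [Field F2] [Field F0]
    [Algebra F F1] [Algebra F F2] [Algebra F F0] [Algebra F1 F0] [Algebra F2 F0]
    [IsScalarTower F F1 F0] [IsScalarTower F F2 F0] [Field K] [Algebra F K]
    [FiniteDimensional F K] [Field N] [Algebra F N] [Algebra K N] [IsScalarTower F K N]
    [IsGalois K N] [CharZero F] (hK : IsField (F1 ⊗[F] K)) {ℓ M : ℕ} (hℓ : ℓ.Prime)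
    (hM : Nat.Coprime ℓ M) {ζ : F}
    (hζ : IsPrimitiveRoot ζ ℓ) (L : Pt F F2 K → IntermediateField K N)
    [∀ d, FiniteDimensional K (L d)] [∀ d, IsGalois K (L d)]
    (hdeg : ∀ d, ∃ k, Module.finrank K (L d) ∣ M ^ k)
    (β : ∀ d, L d) (hβ0 : ∀ d, β d ≠ 0) (y : Pt F F2 K → N) (hy : ∀ d, y d ^ ℓ = β d)
    (x : ∀ d, F1 ⊗[F] L d) (hx : ∀ d, x d ^ ℓ = (1 : F1) ⊗ₜ[F] β d)
    (D : ∀ d, Pt F F2 (L d)) (hD : ∀ d, ptMap F F2 (IsScalarTower.toAlgHom F K (L d)) (D d) = d)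
    (hnp : ∀ d, NotPow ℓ F F2 (β d) (D d)) :
    ∃ (Z : IntermediateField K N) (_ : FiniteDimensional K Z) (v : Pt F F1 Z),
      Function.Bijective (fun a : F1 ⊗[F] K =>
        Ideal.Quotient.mk v.asIdeal (tL F F1 (IsScalarTower.toAlgHom F K Z) a)) ∧
      (∀ e e' : Pt F F0 Z, edge F F1 F0 Z e = v → edge F F1 F0 Z e' = v →
        Relation.ReflTransGen (Step F F1 F2 F0 Z v) (edge F F2 F0 Z e) (edge F F2 F0 Z e')) ∧
      ∃ W : IntermediateField K N, Z ≤ W ∧ FiniteDimensional K W ∧ IsGalois K W ∧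
        (∃ k, Module.finrank K W ∣ (M * ℓ) ^ k) ∧
        ((∀ d, Group.IsSolvable (L d ≃ₐ[K] L d)) → Group.IsSolvable (W ≃ₐ[K] W)) := by
  have hcop : ∀ d, (Module.finrank K (L d)).Coprime ℓ := by
    intro d
    obtain ⟨k, hk⟩ := hdeg d
    exact Nat.Coprime.coprime_dvd_left hk (Nat.Coprime.pow_left k hM.symm)
  obtain ⟨Z, hZ, v, h1, h2, W, h3, h4, h5, h6, h7⟩ :=
    lemG_exists_full (F0 := F0) hK hℓ hζ L hcop β hβ0 y hy x hx D hD hnp
  refine ⟨Z, hZ, v, h1, h2, W, h3, h4, h5, dvd_pow_of_primes Module.finrank_pos.ne' ?_, h7⟩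
  intro r hr hrW
  rcases h6 r hr hrW with h7 | ⟨d, hd⟩
  · rw [h7]
    exact dvd_mul_left ℓ M
  · obtain ⟨k, hk⟩ := hdeg d
    exact (hr.dvd_of_dvd_pow (hd.trans hk)).mul_right ℓ

end P025H837
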