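import Vale.Agent.P025.R2.H837.Ten

/-!
# Lemma G, abstract form
-/

open TensorProduct P025H544

namespace P025H837

/-- two points of `D(L)` have a common neighbour in `V(L)` different from `v` -/
def Step (F F1 F2 F0 L : Type*) [Field F] [Field F1] [Field F2] [Field F0] [Algebra F F1]
    [Algebra F F2] [Algebra F F0] [Algebra F1 F0] [Algebra F2 F0] [IsScalarTower F F1 F0]
    [IsScalarTower F F2 F0] [Field L] [Algebra F L] (v : Pt F F1 L) (d d' : Pt F F2 L) : Prop :=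
  ∃ e e' : Pt F F0 L, edge F F2 F0 L e = d ∧ edge F F2 F0 L e' = d' ∧
    edge F F1 F0 L e = edge F F1 F0 L e' ∧ edge F F1 F0 L e ≠ v

section lemG

variable {F F1 F2 F0 K Z W : Type*} [Field F] [Field F1] [Field F2] [Field F0] [Algebra F F1]
  [Algebra F F2] [Algebra F F0] [Algebra F1 F0] [Algebra F2 F0] [IsScalarTower F F1 F0]
  [IsScalarTower F F2 F0] [Field K] [Algebra F K] [Field Z] [Algebra F Z] [Field W] [Algebra F W]
  [Algebra K W] [IsScalarTower F K W] [FiniteDimensional K W] [Algebra.IsAlgebraic F W]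

/-- Lemma G (b): neighbours of `v_Z` are joined by a path avoiding `v_Z`. `f : Z → W` is the
embedding of the fixed field of the stabilizer of `v`. -/
theorem lemG_path (B : Subgroup (W ≃ₐ[K] W)) (hB : ∀ a ∈ B, ∀ b ∈ B, a * b = b * a)
    (h1 : ∀ b ∈ B, ∀ v : Pt F F1 W, b • v = v → b = 1)
    (h2 : ∀ d : Pt F F2 W, ∃ b ∈ B, b ≠ 1 ∧ b • d = d) (v : Pt F F1 W) (f : Z →ₐ[F] W)
    (hf : ∀ (g : W ≃ₐ[K] W), g • v = v ↔ ∀ z : Z, g (f z) = f z)
    (hinv : ∀ x : W, (∀ g : W ≃ₐ[K] W, g • v = v → g x = x) → ∃ z, f z = x)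
    (e e' : Pt F F0 Z) (he : edge F F1 F0 Z e = ptMap F F1 f v)
    (he' : edge F F1 F0 Z e' = ptMap F F1 f v) :
    Relation.ReflTransGen (Step F F1 F2 F0 Z (ptMap F F1 f v)) (edge F F2 F0 Z e)
      (edge F F2 F0 Z e') := by
  classical
  let H : Subgroup (W ≃ₐ[K] W) := MulAction.stabilizer (W ≃ₐ[K] W) v
  have hInv1 : IsInv (rhoT F F1 W H) (tL F F1 f).toRingHom :=
    isInv_tensor f (fun g l => (hf g.1).1 g.2 l) (fun x hx => hinv x fun g hg => hx ⟨g, hg⟩)
  have hInv0 : ∀ (g : W ≃ₐ[K] W), g • v = v → ∀ x : Pt F F0 W,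
      ptMap F F0 f (g • x) = ptMap F F0 f x := by
    intro g hg x
    have hI : IsInv (rhoT F F0 W H) (tL F F0 f).toRingHom :=
      isInv_tensor f (fun g l => (hf g.1).1 g.2 l) (fun x hx => hinv x fun g hg => hx ⟨g, hg⟩)
    exact hI.comap_gp ⟨g, hg⟩ x
  -- uniqueness of the point over `v_Z`
  have huniq : ∀ x : Pt F F1 W, ptMap F F1 f x = ptMap F F1 f v → x = v := by
    intro x hx
    obtain ⟨g, hg⟩ := hInv1.trans (isMaximal_pt v) (isMaximal_pt x) hx.symm
    rw [← hg]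
    exact g.2
  -- lifts of the edges
  have hlift : ∀ e : Pt F F0 Z, edge F F1 F0 Z e = ptMap F F1 f v → ∃ e1 : Pt F F0 W,
      ptMap F F0 f e1 = e ∧ edge F F1 F0 W e1 = v := by
    intro e he
    obtain ⟨e1, h3⟩ := ptMap_surjective (A := F0) f e
    refine ⟨e1, h3, huniq _ ?_⟩
    rw [← edge_ptMap, h3, he]
  obtain ⟨e1, h3, h4⟩ := hlift e he
  obtain ⟨e1', h3', h4'⟩ := hlift e' he'
  -- one step
  have hne : ∀ b ∈ B, b ≠ 1 → ptMap F F1 f (b • v) ≠ ptMap F F1 f v := by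
    intro b hb hb1 h
    exact hb1 (h1 b hb v (huniq _ h))
  have hstep : ∀ (b : W ≃ₐ[K] W), b ∈ B → b ≠ 1 → ∀ x y : Pt F F0 W,
      edge F F1 F0 W x = v → edge F F1 F0 W y = v →
      Step F F1 F2 F0 Z (ptMap F F1 f v) (ptMap F F2 f (b • edge F F2 F0 W x))
        (ptMap F F2 f (b • edge F F2 F0 W y)) := by
    intro b hb hb1 x y hx hy
    refine ⟨ptMap F F0 f (b • x), ptMap F F0 f (b • y), ?_, ?_, ?_, ?_⟩
    · rw [edge_ptMap, edge_smul]
    · rw [edge_ptMap, edge_smul]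
    · rw [edge_ptMap, edge_ptMap, edge_smul, edge_smul, hx, hy]
    · rw [edge_ptMap, edge_smul, hx]
      exact hne b hb hb1
  rw [← h3, ← h3', edge_ptMap, edge_ptMap]
  set d := edge F F2 F0 W e1 with hd
  set d' := edge F F2 F0 W e1' with hd'
  obtain ⟨b, hb, hb1, hbd⟩ := h2 d
  by_cases hbd' : b • d' = d'
  · have h5 := hstep b hb hb1 e1 e1' h4 h4'
    rw [← hd, ← hd', hbd, hbd'] at h5
    exact Relation.ReflTransGen.single h5
  · obtain ⟨b', hb', hb1', hbd''⟩ := h2 d'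
    have hbb : b * b' ≠ 1 := by
      intro h
      apply hbd'
      have h6 : b • (b' • d') = d' := by rw [← mul_smul, h, one_smul]
      rwa [hbd''] at h6
    have h5 := hstep b hb hb1 e1 e1' h4 h4'
    rw [← hd, ← hd', hbd] at h5
    have h6 := hstep (b * b') (B.mul_mem hb hb') hbb e1' e1 h4' h4
    rw [← hd, ← hd', mul_smul b b' d', hbd'', hB b hb b' hb', mul_smul b' b d, hbd] at h6
    have h7 := hstep b' hb' hb1' e1 e1' h4 h4'
    rw [← hd, ← hd', hbd''] at h7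
    exact ((Relation.ReflTransGen.single h5).tail h6).tail h7

/-- Lemma G (a): the residue field of `Z` at `v_Z` is `K1`. -/
theorem lemG_res [IsGalois K W] [CharZero F] (v : Pt F F1 W) (f : Z →ₐ[F] W) (j : K →ₐ[F] Z)
    (hj : ∀ x : K, f (j x) = algebraMap K W x)
    (hf : ∀ (g : W ≃ₐ[K] W), g • v = v → ∀ z : Z, g (f z) = f z) (x : F1 ⊗[F] Z) :
    ∃ y : F1 ⊗[F] K, x - tL F F1 j y ∈ (ptMap F F1 f v).asIdeal := by
  classical
  have hInv : IsInv (rhoT F F1 W (W ≃ₐ[K] W))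
      (tL F F1 (IsScalarTower.toAlgHom F K W)).toRingHom :=
    isInv_tensor _ (fun g l => g.commutes l) (fun x hx => by
      obtain ⟨y, hy⟩ := (IsGalois.mem_range_algebraMap_iff_fixed x).2 hx
      exact ⟨y, hy⟩)
  obtain ⟨a, ha⟩ := hInv.trace (isMaximal_pt v) (tL F F1 f x) (by
    intro g hg
    have h1 : g • v = v := hg
    have h2 : rhoT F F1 W (W ≃ₐ[K] W) g (tL F F1 f x) = tL F F1 f x := by
      rw [rhoT_apply]
      induction x with
      | zero => rw [map_zero, smul_zero]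
      | add x y hx hy => rw [map_add, smul_add, hx, hy]
      | tmul a l =>
        rw [tL_tmul, smul_tmul_def]
        rw [show g • f l = g (f l) from rfl, hf g h1]
    rw [h2, sub_self]
    exact v.asIdeal.zero_mem)
  set n := Nat.card (stab (rhoT F F1 W (W ≃ₐ[K] W)) v) with hn
  have hn0 : n ≠ 0 := Nat.card_pos.ne'
  have hchar : CharZero F1 := charZero_of_injective_algebraMap (algebraMap F F1).injective
  have hnF : (n : F1) ≠ 0 := Nat.cast_ne_zero.2 hn0
  refine ⟨(n : F1)⁻¹ • a, ?_⟩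
  rw [mem_ptMap, map_sub, tL_comp, map_smul]
  have h3 : f.comp j = IsScalarTower.toAlgHom F K W := by
    ext y
    exact hj y
  rw [h3]
  have h4 : tL F F1 f x - (n : F1)⁻¹ • tL F F1 (IsScalarTower.toAlgHom F K W) a =
      -((n : F1)⁻¹ • (tL F F1 (IsScalarTower.toAlgHom F K W) a - (n : F1 ⊗[F] W) *
        tL F F1 f x)) := by
    rw [smul_sub, neg_sub]
    congr 1
    have h5 : ((n : F1 ⊗[F] W) * tL F F1 f x) = (n : F1) • tL F F1 f x := by
      rw [Algebra.smul_def, map_natCast]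
    rw [h5, smul_smul, inv_mul_cancel₀ hnF, one_smul]
  rw [h4]
  apply v.asIdeal.neg_mem
  rw [Algebra.smul_def]
  exact v.asIdeal.mul_mem_left _ ha

end lemG

end P025H837
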