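import Vale.Agent.P025.R2.H837.Rns
import Vale.Agent.P025.R2.H450.RnsDef

/-!
# Lemma G from `RNSat`
-/

open TensorProduct P025H544 IntermediateField Vale.Agent.P019P P025H492 P025H628 P025H373
  P025H450

namespace P025H837

universe u

variable {C : Type u} [NontriviallyNormedField C] [IsUltrametricDist C] [CompleteSpace C]
  [IsAlgClosed C] [CharZero C] {K N : Type u} [Field K] [Algebra C K] [Algebra (RatFunc C) K]
  [IsScalarTower C (RatFunc C) K] [CFF C K] [FiniteDimensional (RatFunc C) K] [Field N]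
  [Algebra C N] [Algebra K N] [IsScalarTower C K N] [Algebra (RatFunc C) N]
  [IsScalarTower (RatFunc C) K N]

/-- Lemma G from `RNSat` at one place on every component of `|T| > ‖c‖`. -/
theorem lemG_rnsat (hamb : Amb C K N) (c : Cˣ) (hK1 : IsField (F1r C c ⊗[RatFunc C] K))
    {l m : ℕ} (hl : l.Prime) (hlm : Nat.Coprime l m)
    (huniq : ∀ (P : Plk C K) (d d' : Pt (RatFunc C) (F2r C c) K), OnD C c P d → OnD C c P d' →
      d = d')
    (hd : ∀ d : Pt (RatFunc C) (F2r C c) K, ∃ P : Plk C K, OnD C c P d ∧ RNSat C m l P c) :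
    ∃ (Z : IntermediateField K N) (_ : FiniteDimensional K Z)
      (v : Pt (RatFunc C) (F1r C c) Z),
      Function.Bijective (fun a : F1r C c ⊗[RatFunc C] K => Ideal.Quotient.mk v.asIdeal
        (tL (RatFunc C) (F1r C c) (IsScalarTower.toAlgHom (RatFunc C) K Z) a)) ∧
      (∀ e e' : Pt (RatFunc C) (F0r C c) Z,
        edge (RatFunc C) (F1r C c) (F0r C c) Z e = v →
        edge (RatFunc C) (F1r C c) (F0r C c) Z e' = v →
        Relation.ReflTransGen (Step (RatFunc C) (F1r C c) (F2r C c) (F0r C c) Z v)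
          (edge (RatFunc C) (F2r C c) (F0r C c) Z e)
          (edge (RatFunc C) (F2r C c) (F0r C c) Z e')) ∧
      ∃ W : IntermediateField K N, Z ≤ W ∧ Cov (m * l) C K W := by
  have hd' : ∀ d : Pt (RatFunc C) (F2r C c) K, ∃ (L : Type u) (_ : Field L) (_ : Algebra C L)
      (_ : Algebra K L) (_ : Algebra (RatFunc C) L) (_ : IsScalarTower C K L)
      (_ : IsScalarTower (RatFunc C) K L) (_ : CFF C L) (_ : FiniteDimensional K L),
      IsCov C K L ∧ (∃ k, Module.finrank K L ∣ m ^ k) ∧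
      ∃ β : L, β ≠ 0 ∧ (∀ P : Plk C L, (l : ℤ) ∣ ord P β) ∧
        (∃ x : F1r C c ⊗[RatFunc C] L, x ^ l = 1 ⊗ₜ β) ∧
        ∃ d' : Pt (RatFunc C) (F2r C c) L,
          ptMap (RatFunc C) (F2r C c) (IsScalarTower.toAlgHom (RatFunc C) K L) d' = d ∧
          NotPow l (RatFunc C) (F2r C c) β d' := by
    intro d
    obtain ⟨P, hP, L, i1, i2, i3, i4, i5, i6, i7, i8, hcov, β, hβ0, hβ, hx, d', hd', hnp⟩ := hd d
    have hfin : FiniteDimensional K L := hcov.fin
    exact ⟨L, i1, i2, i3, i4, i5, i7, i8, hfin, ⟨hcov.gal, hcov.sol, fun Q => hcov.unr Q⟩,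
      hcov.deg, β, hβ0, hβ, hx, d', huniq P _ _ hd' hP, hnp⟩
  obtain ⟨Z, hZ, v, h1, h2, W, h3, h4, h5, h6, h7⟩ := lemG_rns hamb c hK1 hl hlm hd'
  exact ⟨Z, hZ, v, h1, h2, W, h3, ⟨h4, h5, h7, h6, fun Q => (hamb.cov W).unr Q⟩⟩

end P025H837
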