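import Mathlib

/-!
# Finite groups acting on a ring: points of the spectrum, chinese remainders, traces and norms
-/

namespace P025H837

universe u v w

section act

variable {B : Type u} [CommRing B] {G : Type v} [Group G] (ρ : G →* (B ≃+* B))

/-- the translate of a point of the spectrum: `x ∈ g P` iff `g⁻¹ x ∈ P` -/
def gp (g : G) (P : PrimeSpectrum B) : PrimeSpectrum B :=
  PrimeSpectrum.comap ((ρ g⁻¹ : B ≃+* B) : B →+* B) P

lemma mem_gp {g : G} {P : PrimeSpectrum B} {x : B} :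
    x ∈ (gp ρ g P).asIdeal ↔ ρ g⁻¹ x ∈ P.asIdeal := Iff.rfl

lemma map_mul_apply (g h : G) (x : B) : ρ (g * h) x = ρ g (ρ h x) := by
  rw [map_mul]; rfl

lemma map_inv_apply (g : G) (x : B) : ρ g⁻¹ (ρ g x) = x := by
  rw [← map_mul_apply, inv_mul_cancel, map_one]; rfl

lemma map_apply_inv (g : G) (x : B) : ρ g (ρ g⁻¹ x) = x := by
  rw [← map_mul_apply, mul_inv_cancel, map_one]; rfl

lemma map_mem_gp {g : G} {P : PrimeSpectrum B} {x : B} :
    ρ g x ∈ (gp ρ g P).asIdeal ↔ x ∈ P.asIdeal := by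
  rw [mem_gp, map_inv_apply]

lemma gp_one (P : PrimeSpectrum B) : gp ρ 1 P = P := by
  apply PrimeSpectrum.ext
  ext x
  rw [mem_gp, inv_one, map_one]
  rfl

lemma gp_mul (g h : G) (P : PrimeSpectrum B) : gp ρ (g * h) P = gp ρ g (gp ρ h P) := by
  apply PrimeSpectrum.ext
  ext x
  rw [mem_gp, mem_gp, mem_gp, mul_inv_rev, map_mul_apply]

lemma gp_inv_gp (g : G) (P : PrimeSpectrum B) : gp ρ g⁻¹ (gp ρ g P) = P := by
  rw [← gp_mul, inv_mul_cancel, gp_one]

lemma gp_gp_inv (g : G) (P : PrimeSpectrum B) : gp ρ g (gp ρ g⁻¹ P) = P := by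
  rw [← gp_mul, mul_inv_cancel, gp_one]

lemma gp_eq_iff {g : G} {P Q : PrimeSpectrum B} : gp ρ g P = Q ↔ P = gp ρ g⁻¹ Q := by
  constructor
  · rintro rfl; rw [gp_inv_gp]
  · rintro rfl; rw [gp_gp_inv]

lemma gp_isMaximal {P : PrimeSpectrum B} (hP : P.asIdeal.IsMaximal) (g : G) :
    (gp ρ g P).asIdeal.IsMaximal :=
  Ideal.comap_isMaximal_of_equiv (ρ g⁻¹)

/-- the stabilizer of a point -/
def stab (P : PrimeSpectrum B) : Subgroup G where
  carrier := {g | gp ρ g P = P}
  mul_mem' := by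
    intro g h hg hh
    change gp ρ (g * h) P = P
    rw [gp_mul, show gp ρ h P = P from hh, show gp ρ g P = P from hg]
  one_mem' := gp_one ρ P
  inv_mem' := by
    intro g hg
    change gp ρ g⁻¹ P = P
    conv_lhs => rw [← (show gp ρ g P = P from hg)]
    rw [gp_inv_gp]

lemma mem_stab {P : PrimeSpectrum B} {g : G} : g ∈ stab ρ P ↔ gp ρ g P = P := Iff.rfl

lemma map_mem_of_stab {P : PrimeSpectrum B} {g : G} (hg : g ∈ stab ρ P) {x : B}
    (hx : x ∈ P.asIdeal) : ρ g x ∈ P.asIdeal := by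
  have h1 := (map_mem_gp ρ (g := g) (P := P) (x := x)).2 hx
  rwa [(mem_stab ρ).1 hg] at h1

/-- chinese remainders on an orbit -/
lemma exists_crt [Finite G] {P : PrimeSpectrum B} (hP : P.asIdeal.IsMaximal) (y u : B) :
    ∃ z : B, z - y ∈ P.asIdeal ∧ ∀ g : G, gp ρ g P ≠ P → z - u ∈ (gp ρ g P).asIdeal := by
  classical
  let ι := {Q : PrimeSpectrum B // ∃ g : G, gp ρ g P = Q}
  have : Finite ι := by
    have hs : Function.Surjective (fun g : G => (⟨gp ρ g P, g, rfl⟩ : ι)) := by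
      rintro ⟨Q, g, rfl⟩
      exact ⟨g, rfl⟩
    exact Finite.of_surjective _ hs
  have hcop : Pairwise (Function.onFun IsCoprime (fun i : ι => (i.1.asIdeal : Ideal B))) := by
    rintro ⟨Q, g, rfl⟩ ⟨Q', g', rfl⟩ hne
    have := gp_isMaximal ρ hP g
    have := gp_isMaximal ρ hP g'
    apply Ideal.isCoprime_of_isMaximal
    intro h
    exact hne (Subtype.ext (PrimeSpectrum.ext h))
  obtain ⟨z, hz⟩ := Ideal.exists_forall_sub_mem_ideal hcop
    (fun i : ι => if i.1 = P then y else u)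
  refine ⟨z, ?_, fun g hg => ?_⟩
  · have h1 := hz ⟨P, 1, gp_one ρ P⟩
    simpa using h1
  · have h1 := hz ⟨gp ρ g P, g, rfl⟩
    simpa [hg] using h1

end act

section inv

variable {A : Type w} [CommRing A] {B : Type u} [CommRing B] {G : Type v} [Group G]
  (ρ : G →* (B ≃+* B)) (φ : A →+* B)

/-- the fixed elements of `B` are the image of `A` -/
structure IsInv : Prop where
  fix : ∀ (g : G) (a : A), ρ g (φ a) = φ a
  surj : ∀ x : B, (∀ g : G, ρ g x = x) → ∃ a, φ a = x

variable {ρ φ}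

lemma IsInv.comap_gp (h : IsInv ρ φ) (g : G) (P : PrimeSpectrum B) :
    PrimeSpectrum.comap φ (gp ρ g P) = PrimeSpectrum.comap φ P := by
  apply PrimeSpectrum.ext
  ext a
  change ρ g⁻¹ (φ a) ∈ P.asIdeal ↔ φ a ∈ P.asIdeal
  rw [h.fix]

/-- transitivity on the points over a given point -/
lemma IsInv.trans [Finite G] (h : IsInv ρ φ) {P Q : PrimeSpectrum B}
    (hP : P.asIdeal.IsMaximal) (hQ : Q.asIdeal.IsMaximal)
    (hPQ : PrimeSpectrum.comap φ P = PrimeSpectrum.comap φ Q) : ∃ g : G, gp ρ g P = Q := by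
  classical
  have := Fintype.ofFinite G
  by_contra hcon
  push Not at hcon
  -- an element of `Q` which is `1` at all translates of `P`
  let ι := Option {R : PrimeSpectrum B // ∃ g : G, gp ρ g P = R}
  have : Finite {R : PrimeSpectrum B // ∃ g : G, gp ρ g P = R} := by
    have hs : Function.Surjective
        (fun g : G => (⟨gp ρ g P, g, rfl⟩ : {R : PrimeSpectrum B // ∃ g : G, gp ρ g P = R})) := by
      rintro ⟨R, g, rfl⟩
      exact ⟨g, rfl⟩
    exact Finite.of_surjective _ hs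
  let I : ι → Ideal B := fun i => i.elim Q.asIdeal fun R => R.1.asIdeal
  have hmax : ∀ i, (I i).IsMaximal := by
    rintro (_ | ⟨R, g, rfl⟩)
    · exact hQ
    · exact gp_isMaximal ρ hP g
  have hcop : Pairwise (Function.onFun IsCoprime I) := by
    intro i j hne
    have hi := hmax i
    have hj := hmax j
    apply Ideal.isCoprime_of_isMaximal
    intro h1
    rcases i with _ | ⟨R, g, rfl⟩ <;> rcases j with _ | ⟨R', g', rfl⟩
    · exact hne rfl
    · exact hcon g' (PrimeSpectrum.ext h1.symm)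
    · exact hcon g (PrimeSpectrum.ext h1)
    · exact hne (congrArg some (Subtype.ext (PrimeSpectrum.ext h1)))
  obtain ⟨z, hz⟩ := Ideal.exists_forall_sub_mem_ideal hcop
    (fun i : ι => i.elim (0 : B) fun _ => 1)
  have hzQ : z ∈ Q.asIdeal := by
    have h1 : z - 0 ∈ Q.asIdeal := hz none
    rwa [sub_zero] at h1
  have hzP : ∀ g : G, z ∉ (gp ρ g P).asIdeal := by
    intro g h1
    have h2 : z - 1 ∈ (gp ρ g P).asIdeal := hz (some ⟨gp ρ g P, g, rfl⟩)
    have h3 : (1 : B) ∈ (gp ρ g P).asIdeal := by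
      have := (gp ρ g P).asIdeal.sub_mem h1 h2
      simpa using this
    exact (gp ρ g P).2.ne_top ((Ideal.eq_top_iff_one _).2 h3)
  obtain ⟨a, ha⟩ := h.surj (∏ g : G, ρ g z) (by
    intro g
    rw [map_prod]
    refine Fintype.prod_equiv (Equiv.mulLeft g) _ _ fun g' => ?_
    rw [Equiv.coe_mulLeft, map_mul_apply])
  have h1 : φ a ∈ Q.asIdeal := by
    rw [ha, ← Finset.mul_prod_erase Finset.univ (fun g => ρ g z) (Finset.mem_univ 1)]
    apply Ideal.mul_mem_right
    rw [map_one]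
    exact hzQ
  have h2 : φ a ∈ P.asIdeal := by
    have h3 : a ∈ (PrimeSpectrum.comap φ Q).asIdeal := h1
    rw [← hPQ] at h3
    exact h3
  rw [ha] at h2
  obtain ⟨g, -, hg⟩ := (P.2.prod_mem_iff).1 h2
  apply hzP g⁻¹
  rw [mem_gp, inv_inv]
  exact hg

/-- trace trick: an element which is fixed by the stabilizer of `P` modulo `P` comes, up to the
order of the stabilizer, from the invariants modulo `P` -/
lemma IsInv.trace [Finite G] (h : IsInv ρ φ) {P : PrimeSpectrum B} (hP : P.asIdeal.IsMaximal)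
    (y : B) (hy : ∀ g ∈ stab ρ P, ρ g y - y ∈ P.asIdeal) :
    ∃ a : A, φ a - (Nat.card (stab ρ P) : B) * y ∈ P.asIdeal := by
  classical
  have := Fintype.ofFinite G
  obtain ⟨z, hz1, hz2⟩ := exists_crt ρ hP y 0
  obtain ⟨a, ha⟩ := h.surj (∑ g : G, ρ g z) (by
    intro g
    rw [map_sum]
    refine Fintype.sum_equiv (Equiv.mulLeft g) _ _ fun g' => ?_
    rw [Equiv.coe_mulLeft, map_mul_apply])
  refine ⟨a, ?_⟩
  have hterm : ∀ g : G, ρ g z - (if g ∈ stab ρ P then y else 0) ∈ P.asIdeal := by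
    intro g
    split_ifs with hg
    · have h1 : ρ g (z - y) ∈ P.asIdeal := map_mem_of_stab ρ hg hz1
      have h2 := P.asIdeal.add_mem h1 (hy g hg)
      rwa [map_sub, sub_add_sub_cancel] at h2
    · have h1 : gp ρ g⁻¹ P ≠ P := by
        intro h2
        exact hg (inv_mem_iff.1 ((mem_stab ρ).2 h2))
      have h3 := hz2 g⁻¹ h1
      rw [mem_gp, inv_inv, sub_zero] at h3
      rwa [sub_zero]
  have hsum := P.asIdeal.sum_mem (fun g (_ : g ∈ (Finset.univ : Finset G)) => hterm g)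
  rw [Finset.sum_sub_distrib, ← ha] at hsum
  have hcard : ∑ g : G, (if g ∈ stab ρ P then y else 0) = (Nat.card (stab ρ P) : B) * y := by
    rw [← Finset.sum_filter, Finset.sum_const, nsmul_eq_mul]
    congr 2
    rw [Nat.card_eq_fintype_card, Fintype.card_subtype]
  rwa [hcard] at hsum

/-- norm trick: if `y ^ n = φ b` modulo `P`, then `φ b ^ |stab|` is the `n`-th power of an
invariant element modulo `P` -/
lemma IsInv.norm [Finite G] (h : IsInv ρ φ) {P : PrimeSpectrum B} (hP : P.asIdeal.IsMaximal)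
    {y : B} {b : A} {n : ℕ} (hy : y ^ n - φ b ∈ P.asIdeal) :
    ∃ a : A, φ (a ^ n) - φ (b ^ Nat.card (stab ρ P)) ∈ P.asIdeal := by
  classical
  have := Fintype.ofFinite G
  obtain ⟨z, hz1, hz2⟩ := exists_crt ρ hP y 1
  obtain ⟨a, ha⟩ := h.surj (∏ g : G, ρ g z) (by
    intro g
    rw [map_prod]
    refine Fintype.prod_equiv (Equiv.mulLeft g) _ _ fun g' => ?_
    rw [Equiv.coe_mulLeft, map_mul_apply])
  refine ⟨a, ?_⟩
  have hmk : ∀ x x' : B, x - x' ∈ P.asIdeal ↔
      Ideal.Quotient.mk P.asIdeal x = Ideal.Quotient.mk P.asIdeal x' := fun x x' =>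
    (Ideal.Quotient.mk_eq_mk_iff_sub_mem x x').symm
  have hterm : ∀ g : G, Ideal.Quotient.mk P.asIdeal (ρ g z ^ n) =
      if g ∈ stab ρ P then Ideal.Quotient.mk P.asIdeal (φ b) else 1 := by
    intro g
    split_ifs with hg
    · have h1 : ρ g (z - y) ∈ P.asIdeal := map_mem_of_stab ρ hg hz1
      have h2 : ρ g (y ^ n - φ b) ∈ P.asIdeal := map_mem_of_stab ρ hg hy
      rw [map_sub, hmk] at h1 h2
      rw [map_pow, h1, ← map_pow, ← map_pow, h2, h.fix]
    · have h1 : gp ρ g⁻¹ P ≠ P := by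
        intro h2
        exact hg (inv_mem_iff.1 ((mem_stab ρ).2 h2))
      have h3 := hz2 g⁻¹ h1
      rw [mem_gp, inv_inv, map_sub, map_one, hmk] at h3
      rw [map_pow, h3, map_one, one_pow]
  rw [hmk, map_pow, ha, ← Finset.prod_pow, map_prod, Finset.prod_congr rfl fun g _ => hterm g,
    ← Finset.prod_filter, Finset.prod_const, map_pow, map_pow]
  congr 1
  rw [Nat.card_eq_fintype_card, Fintype.card_subtype]

end inv

end P025H837
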