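import Vale.Agent.P025.R2.H837.Solv

/-!
# G-LEMG: Lemma G, final form
-/

open TensorProduct P025H544 IntermediateField

namespace P025H837

/-- **Lemma G**, with solvability. `N/K` Galois, `F1 ⊗ K` a field, and over every point `d` of `D(K)` a finite Galois
extension `L d ≤ N` of degree prime to `ℓ` with an element `β d` which is an `ℓ`-th power in `N` and
in `F1 ⊗ L d`, but not at a point of `D(L d)` over `d`. Then there is a finite `Z/K` in `N` and a
point `v` of `V(Z)` with residue field `F1 ⊗ K`, all of whose neighbours are connected without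
using `v`. -/
theorem lemG_exists_full {F F1 F2 F0 K N : Type*} [Field F] [Field F1] [Field F2] [Field F0]
    [Algebra F F1] [Algebra F F2] [Algebra F F0] [Algebra F1 F0] [Algebra F2 F0]
    [IsScalarTower F F1 F0] [IsScalarTower F F2 F0] [Field K] [Algebra F K]
    [FiniteDimensional F K] [Field N] [Algebra F N] [Algebra K N] [IsScalarTower F K N]
    [IsGalois K N] [CharZero F] (hK : IsField (F1 ⊗[F] K)) {ℓ : ℕ} (hℓ : ℓ.Prime) {ζ : F}
    (hζ : IsPrimitiveRoot ζ ℓ) (L : Pt F F2 K → IntermediateField K N)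
    [∀ d, FiniteDimensional K (L d)] [∀ d, IsGalois K (L d)]
    (hcop : ∀ d, (Module.finrank K (L d)).Coprime ℓ)
    (β : ∀ d, L d) (hβ0 : ∀ d, β d ≠ 0) (y : Pt F F2 K → N) (hy : ∀ d, y d ^ ℓ = β d)
    (x : ∀ d, F1 ⊗[F] L d) (hx : ∀ d, x d ^ ℓ = (1 : F1) ⊗ₜ[F] β d)
    (D : ∀ d, Pt F F2 (L d)) (hD : ∀ d, ptMap F F2 (IsScalarTower.toAlgHom F K (L d)) (D d) = d)
    (hnp : ∀ d, NotPow ℓ F F2 (β d) (D d)) :
    ∃ (Z : IntermediateField K N) (_ : FiniteDimensional K Z) (v : Pt F F1 Z),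
      Function.Bijective (fun a : F1 ⊗[F] K =>
        Ideal.Quotient.mk v.asIdeal (tL F F1 (IsScalarTower.toAlgHom F K Z) a)) ∧
      (∀ e e' : Pt F F0 Z, edge F F1 F0 Z e = v → edge F F1 F0 Z e' = v →
        Relation.ReflTransGen (Step F F1 F2 F0 Z v) (edge F F2 F0 Z e) (edge F F2 F0 Z e')) ∧
      ∃ W : IntermediateField K N, Z ≤ W ∧ FiniteDimensional K W ∧ IsGalois K W ∧
        (∀ r : ℕ, r.Prime → r ∣ Module.finrank K W → r = ℓ ∨ ∃ d, r ∣ Module.finrank K (L d)) ∧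
        ((∀ d, Group.IsSolvable (L d ≃ₐ[K] L d)) → Group.IsSolvable (W ≃ₐ[K] W)) := by
  classical
  have hchar : CharZero K := charZero_of_injective_algebraMap (algebraMap F K).injective
  have hart : IsArtinianRing (F2 ⊗[F] K) := IsArtinianRing.of_finite F2 (F2 ⊗[F] K)
  have hfinPt : Finite (Pt F F2 K) := inferInstance
  -- the compositum
  let W' : IntermediateField K N := ⨆ d, L d
  have hLW : ∀ d, L d ≤ W' := fun d => le_iSup L d
  have hW'fin : FiniteDimensional K W' := finiteDimensional_iSup_of_finite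
  have hW'nor : Normal K W' := normal_iSup K N L
  have hW'gal : IsGalois K W' := IsGalois.mk
  have hcopW' : (Module.finrank K W').Coprime ℓ := by
    rw [Nat.coprime_comm, hℓ.coprime_iff_not_dvd]
    intro h
    obtain ⟨d, hd⟩ := exists_dvd_of_dvd_finrank L inferInstance inferInstance W' rfl hℓ h
    have h1 := Nat.dvd_gcd hd (dvd_refl ℓ)
    rw [(hcop d).gcd_eq_one] at h1
    exact hℓ.one_lt.ne' (Nat.dvd_one.1 h1)
  -- the conjugates
  let Y : Set N := Set.range y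
  have hYfin : Y.Finite := Set.finite_range y
  let S : Set N := conjSet K Y
  let W : IntermediateField K N := W' ⊔ adjoin K S
  have hW : W = W' ⊔ adjoin K S := rfl
  have hWW : W' ≤ W := le_sup_left
  have hWnor : Normal K W := normal_sup_conj W' Y
  have hWfin : FiniteDimensional K W := finite_sup_conj W' hYfin
  have hWgal : IsGalois K W := IsGalois.mk
  have hAF : Algebra.IsAlgebraic F W := Algebra.IsAlgebraic.trans F K W
  have hSW : S ⊆ W := fun z hz => (le_sup_right : adjoin K S ≤ W) (subset_adjoin K S hz)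
  have hS1 : ∀ z ∈ S, ∃ m : W', (m : N) = z ^ ℓ ∧
      ∃ x' : F1 ⊗[F] W', x' ^ ℓ = (1 : F1) ⊗ₜ[F] m := by
    rintro _ ⟨τ, _, ⟨d, rfl⟩, rfl⟩
    exact root_conj (hLW d) τ (hy d) (hx d)
  have hS0 : ∀ z ∈ S, z ^ ℓ ∈ W' := by
    intro z hz
    obtain ⟨m, hm, -⟩ := hS1 z hz
    rw [← hm]
    exact m.2
  have hS2 : ∀ d : Pt F F2 W', ∃ z ∈ S, ∃ m : W', (m : N) = z ^ ℓ ∧ NotPow ℓ F F2 m d := by
    intro d1
    let d0 := ptMap F F2 (IsScalarTower.toAlgHom F K W') d1
    obtain ⟨τ, m, hm, h1⟩ := notPow_conj (hLW d0) hcopW' (hβ0 d0) (hy d0) (D d0) (hnp d0) d1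
      (hD d0)
    exact ⟨τ (y d0), ⟨τ, y d0, ⟨d0, rfl⟩, rfl⟩, m, hm, h1⟩
  -- a point over `W`
  have hnt : Nontrivial (F1 ⊗[F] W) := inferInstance
  obtain ⟨v⟩ : Nonempty (Pt F F1 W) := inferInstance
  let H : Subgroup (W ≃ₐ[K] W) := MulAction.stabilizer (W ≃ₐ[K] W) v
  let Z : IntermediateField K N := fixN W H
  have hZW : Z ≤ W := fixN_le W H
  have hZfin : FiniteDimensional K Z :=
    FiniteDimensional.of_injective (inclusion hZW).toLinearMap (inclusion hZW).injective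
  let f : Z →ₐ[F] W := incl F hZW
  have hf1 : ∀ g : W ≃ₐ[K] W, g • v = v → ∀ z : Z, g (f z) = f z := by
    intro g hg z
    obtain ⟨hz, h1⟩ := mem_fixN.1 z.2
    exact h1 g hg
  have hf2 : ∀ g : W ≃ₐ[K] W, (∀ z : Z, g (f z) = f z) → g • v = v := by
    intro g hg
    exact mem_of_fixes H g fun a ha => hg ⟨a, ha⟩
  have hinv : ∀ a : W, (∀ g : W ≃ₐ[K] W, g • v = v → g a = a) → ∃ z, f z = a := by
    intro a ha
    exact ⟨⟨a, mem_fixN.2 ⟨a.2, fun g hg => ha g hg⟩⟩, rfl⟩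
  refine ⟨Z, hZfin, ptMap F F1 f v, ⟨?_, ?_⟩, ?_, W, hZW, hWfin, hWgal, ?_, fun hs => ?_⟩
  · -- injectivity
    let _ : Field (F1 ⊗[F] K) := hK.toField
    let φ : F1 ⊗[F] K →+* (F1 ⊗[F] Z) ⧸ (ptMap F F1 f v).asIdeal :=
      (Ideal.Quotient.mk (ptMap F F1 f v).asIdeal).comp
        (tL F F1 (IsScalarTower.toAlgHom F K Z)).toRingHom
    exact φ.injective
  · intro q
    obtain ⟨q, rfl⟩ := Ideal.Quotient.mk_surjective q
    obtain ⟨a, ha⟩ := lemG_res (K := K) v f (IsScalarTower.toAlgHom F K Z) (fun _ => rfl) hf1 q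
    exact ⟨a, (Ideal.Quotient.eq.2 ha).symm⟩
  · intro e e' he he'
    exact lemG_path (F2 := F2) (K := K) (fixG W' W)
      (fun a ha b hb => kum_comm hW hℓ.ne_zero hζ hS0 ha hb)
      (fun b hb v' hv' => kum_free hW hWW hℓ.ne_zero hζ hS1 hb v' hv')
      (fun d => kum_stab hWW hSW hS2 d) v f (fun g => ⟨hf1 g, hf2 g⟩) hinv e e' he he'
  · intro r hr hrW
    by_cases hrW' : r ∣ Module.finrank K W'
    · right
      exact exists_dvd_of_dvd_finrank L inferInstance inferInstance W' rfl hr hrW'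
    · left
      have := Fact.mk hr
      have hfinG : Finite (W ≃ₐ[K] W) := inferInstance
      have := Fintype.ofFinite (W ≃ₐ[K] W)
      rw [← IsGalois.card_aut_eq_finrank K W, Nat.card_eq_fintype_card] at hrW
      obtain ⟨g, hg⟩ := exists_prime_orderOf_dvd_card r hrW
      have hgB : g ∈ fixG W' W := fix_of_order hWW hr hg hrW'
      have hgl : g ^ ℓ = 1 := by
        apply eq_one_of_fix hW ((fixG W' W).pow_mem hgB ℓ)
        intro z hz
        obtain ⟨i, hi⟩ := pow_act hℓ.ne_zero hζ z (hS0 z hz) hgB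
        have h1 : ∀ n : ℕ, (g ^ n) z = algebraMap F W ζ ^ (i * n) * z := by
          intro n
          induction n with
          | zero => rw [pow_zero, mul_zero, pow_zero, one_mul]; rfl
          | succ n ih =>
            rw [pow_succ', AlgEquiv.mul_apply, ih, act_pow_mul, hi]
            ring
        rw [h1, mul_comm i, pow_mul, ← map_pow, hζ.pow_eq_one, map_one, one_pow, one_mul]
      have h2 : r ∣ ℓ := by
        rw [← hg]
        exact orderOf_dvd_of_pow_eq_one hgl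
      exact (Nat.prime_dvd_prime_iff_eq hr hℓ).1 h2
  · exact isSolvable_ext hWW (fun a ha b hb => kum_comm hW hℓ.ne_zero hζ hS0 ha hb)
      (isSolvable_iSup L (fun d => inferInstance) rfl hs)

/-- **Lemma G.** -/
theorem lemG_exists {F F1 F2 F0 K N : Type*} [Field F] [Field F1] [Field F2] [Field F0]
    [Algebra F F1] [Algebra F F2] [Algebra F F0] [Algebra F1 F0] [Algebra F2 F0]
    [IsScalarTower F F1 F0] [IsScalarTower F F2 F0] [Field K] [Algebra F K]
    [FiniteDimensional F K] [Field N] [Algebra F N] [Algebra K N] [IsScalarTower F K N]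
    [IsGalois K N] [CharZero F] (hK : IsField (F1 ⊗[F] K)) {ℓ : ℕ} (hℓ : ℓ.Prime) {ζ : F}
    (hζ : IsPrimitiveRoot ζ ℓ) (L : Pt F F2 K → IntermediateField K N)
    [∀ d, FiniteDimensional K (L d)] [∀ d, IsGalois K (L d)]
    (hcop : ∀ d, (Module.finrank K (L d)).Coprime ℓ)
    (β : ∀ d, L d) (hβ0 : ∀ d, β d ≠ 0) (y : Pt F F2 K → N) (hy : ∀ d, y d ^ ℓ = β d)
    (x : ∀ d, F1 ⊗[F] L d) (hx : ∀ d, x d ^ ℓ = (1 : F1) ⊗ₜ[F] β d)
    (D : ∀ d, Pt F F2 (L d)) (hD : ∀ d, ptMap F F2 (IsScalarTower.toAlgHom F K (L d)) (D d) = d)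
    (hnp : ∀ d, NotPow ℓ F F2 (β d) (D d)) :
    ∃ (Z : IntermediateField K N) (_ : FiniteDimensional K Z) (v : Pt F F1 Z),
      Function.Bijective (fun a : F1 ⊗[F] K =>
        Ideal.Quotient.mk v.asIdeal (tL F F1 (IsScalarTower.toAlgHom F K Z) a)) ∧
      (∀ e e' : Pt F F0 Z, edge F F1 F0 Z e = v → edge F F1 F0 Z e' = v →
        Relation.ReflTransGen (Step F F1 F2 F0 Z v) (edge F F2 F0 Z e) (edge F F2 F0 Z e')) ∧
      ∃ W : IntermediateField K N, Z ≤ W ∧ FiniteDimensional K W ∧ IsGalois K W ∧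
        ∀ r : ℕ, r.Prime → r ∣ Module.finrank K W → r = ℓ ∨ ∃ d, r ∣ Module.finrank K (L d) := by
  obtain ⟨Z, hZ, v, h1, h2, W, h3, h4, h5, h6, -⟩ :=
    lemG_exists_full (F0 := F0) hK hℓ hζ L hcop β hβ0 y hy x hx D hD hnp
  exact ⟨Z, hZ, v, h1, h2, W, h3, h4, h5, h6⟩

end P025H837
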