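import Vale.Agent.P025.R2.H837.Kum

/-!
# Lemma G: the data over the compositum
-/

open TensorProduct P025H544 IntermediateField

namespace P025H837

section conj

variable {K N : Type*} [Field K] [Field N] [Algebra K N]

/-- all conjugates of elements of a set -/
def conjSet (K : Type*) {N : Type*} [Field K] [Field N] [Algebra K N] (Y : Set N) : Set N :=
  {z | ∃ (τ : N ≃ₐ[K] N), ∃ y ∈ Y, τ y = z}

lemma conj_finite [Algebra.IsAlgebraic K N] {Y : Set N} (hY : Y.Finite) :
    (conjSet K Y).Finite := by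
  classical
  have h1 : (⋃ y ∈ Y, (minpoly K y).rootSet N).Finite :=
    hY.biUnion fun y _ => Polynomial.rootSet_finite _ _
  refine h1.subset ?_
  rintro z ⟨τ, y, hy, rfl⟩
  rw [Set.mem_iUnion₂]
  refine ⟨y, hy, ?_⟩
  have h2 : IsIntegral K y := Algebra.IsIntegral.isIntegral y
  rw [Polynomial.mem_rootSet]
  refine ⟨minpoly.ne_zero h2, ?_⟩
  rw [Polynomial.aeval_algHom_apply, minpoly.aeval, map_zero]

lemma image_conj {Y : Set N} (τ : N ≃ₐ[K] N) : (τ : N → N) '' conjSet K Y ⊆ conjSet K Y := by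
  rintro _ ⟨_, ⟨σ, y, hy, rfl⟩, rfl⟩
  exact ⟨τ * σ, y, hy, rfl⟩

lemma normal_sup_conj [Normal K N] (W' : IntermediateField K N) [Normal K W'] (Y : Set N) :
    Normal K (W' ⊔ adjoin K (conjSet K Y) : IntermediateField K N) := by
  rw [normal_iff_forall_map_le']
  intro σ
  rw [IntermediateField.map_sup, adjoin_map]
  refine sup_le_sup ?_ ?_
  · exact (normal_iff_forall_map_le'.1 ‹_›) σ
  · exact adjoin.mono K _ _ (image_conj σ)

lemma finite_sup_conj [Algebra.IsAlgebraic K N] (W' : IntermediateField K N)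
    [FiniteDimensional K W'] {Y : Set N} (hY : Y.Finite) :
    FiniteDimensional K (W' ⊔ adjoin K (conjSet K Y) : IntermediateField K N) := by
  have h1 : (conjSet K Y).Finite := conj_finite hY
  have : Finite (conjSet K Y) := h1
  have h2 : FiniteDimensional K (adjoin K (conjSet K Y)) :=
    finiteDimensional_adjoin fun x _ => Algebra.IsIntegral.isIntegral x
  infer_instance

/-- an automorphism of prime order `r` of `W` fixes `W'` if `r` does not divide `[W' : K]` -/
lemma fix_of_order {W' W : IntermediateField K N} (h : W' ≤ W) [FiniteDimensional K W']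
    [IsGalois K W'] [FiniteDimensional K W] [IsGalois K W] {r : ℕ} (hr : r.Prime) {g : W ≃ₐ[K] W}
    (hg : orderOf g = r) (hcon : ¬ r ∣ Module.finrank K W') : g ∈ fixG W' W := by
  let Li : IntermediateField K W := restrict h
  have e1 : W' ≃ₐ[K] Li := restrictAlgEquiv h
  have hfd : FiniteDimensional K Li := e1.toLinearEquiv.finiteDimensional
  have hGi : IsGalois K Li := IsGalois.of_algEquiv e1
  have hNi : Normal K Li := inferInstance
  let gi := AlgEquiv.restrictNormalHom Li g
  have h1 : orderOf gi ∣ r := by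
    rw [← hg]
    exact orderOf_map_dvd _ g
  have h2 : orderOf gi ∣ Module.finrank K W' := by
    rw [e1.toLinearEquiv.finrank_eq, ← IsGalois.card_aut_eq_finrank K Li]
    exact orderOf_dvd_natCard gi
  have h3 : orderOf gi = 1 := by
    rcases (Nat.dvd_prime hr).1 h1 with h4 | h4
    · exact h4
    · rw [h4] at h2
      exact absurd h2 hcon
  have h4 : gi = 1 := orderOf_eq_one_iff.1 h3
  intro x hx
  have hx' : x ∈ Li := (mem_restrict h _).2 hx
  have h6 := AlgEquiv.restrictNormalHom_apply Li g ⟨x, hx'⟩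
  rw [show AlgEquiv.restrictNormalHom Li g = 1 from h4] at h6
  exact h6.symm

end conj

section data

variable {F A K N : Type*} [Field F] [Field A] [Algebra F A] [Field K] [Algebra F K] [Field N]
  [Algebra F N] [Algebra K N] [IsScalarTower F K N]

/-- the conjugation `L → W'` by an automorphism of `N`, for `L ≤ W'` normal -/
noncomputable def cj (F : Type*) {K N : Type*} [Field F] [Field K] [Algebra F K] [Field N]
    [Algebra F N] [Algebra K N] [IsScalarTower F K N] {L W' : IntermediateField K N} (h : L ≤ W')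
    [Normal K L] (τ : N ≃ₐ[K] N) : L →ₐ[F] W' :=
  (incl F h).comp ((AlgEquiv.restrictNormal τ L).toAlgHom.restrictScalars F)

lemma coe_cj {L W' : IntermediateField K N} (h : L ≤ W') [Normal K L] (τ : N ≃ₐ[K] N) (x : L) :
    ((cj F h τ x : W') : N) = τ x :=
  AlgEquiv.restrictNormal_commutes τ L x

/-- roots of `β` over `F1 ⊗ L` give roots of the conjugates of `β` over `F1 ⊗ W'` -/
lemma root_conj {L W' : IntermediateField K N} (h : L ≤ W') [Normal K L] (τ : N ≃ₐ[K] N) {ℓ : ℕ}
    {β : L} {y : N} (hy : y ^ ℓ = β) {x : A ⊗[F] L} (hx : x ^ ℓ = (1 : A) ⊗ₜ[F] β) :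
    ∃ m : W', (m : N) = (τ y) ^ ℓ ∧ ∃ x' : A ⊗[F] W', x' ^ ℓ = (1 : A) ⊗ₜ[F] m := by
  refine ⟨cj F h τ β, ?_, tL F A (cj F h τ) x, ?_⟩
  · rw [coe_cj, ← hy, map_pow]
  · rw [← map_pow, hx, tL_tmul]

/-- transport of `NotPow` to conjugate points -/
lemma NotPow.smul {W' : IntermediateField K N} {ℓ : ℕ} {m : W'} {d : Pt F A W'}
    (h : NotPow ℓ F A m d) (σ : W' ≃ₐ[K] W') : NotPow ℓ F A (σ m) (σ • d) := by
  intro z hz
  rw [mem_smul_pt, smul_sub, smul_pow', smul_tmul_def] at hz
  apply h (σ⁻¹ • z)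
  have h1 : σ⁻¹ • (σ m) = m := by
    change (σ⁻¹ * σ) m = m
    rw [inv_mul_cancel]; rfl
  rwa [h1] at hz

/-- the non-power condition at an arbitrary point of `D(W')` -/
lemma notPow_conj [Algebra.IsAlgebraic F K] [IsGalois K N] {L W' : IntermediateField K N}
    (h : L ≤ W') [FiniteDimensional K W'] [IsGalois K W'] {ℓ : ℕ}
    (hcop : (Module.finrank K W').Coprime ℓ) {β : L} (hβ0 : β ≠ 0) {y : N} (hy : y ^ ℓ = β)
    (D : Pt F A L) (hnp : NotPow ℓ F A β D) (d1 : Pt F A W')
    (hD : ptMap F A (IsScalarTower.toAlgHom F K L) D =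
      ptMap F A (IsScalarTower.toAlgHom F K W') d1) :
    ∃ τ : N ≃ₐ[K] N, ∃ m : W', (m : N) = (τ y) ^ ℓ ∧ NotPow ℓ F A m d1 := by
  have hAF : Algebra.IsAlgebraic F W' := Algebra.IsAlgebraic.trans F K W'
  have hAL : Algebra.IsAlgebraic F L :=
    Algebra.IsAlgebraic.of_injective (incl F h) (incl F h).injective
  obtain ⟨d2, hd2⟩ := ptMap_surjective (A := A) (incl F h) D
  have hcard : Nat.card (W' ≃ₐ[K] W') = Module.finrank K W' := IsGalois.card_aut_eq_finrank K W'
  have hnp' : NotPow ℓ F A (incl F h β) d2 := by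
    refine NotPow.ext (G := fixG L W') (incl F h) (fun g l => g.2 (incl F h l) l.2) ?_ ?_ hβ0
      (by rw [hd2]; exact hnp)
    · intro x hx
      have h1 : (x : N) ∈ L := mem_of_fixG h x fun b hb => hx ⟨b, hb⟩
      exact ⟨⟨x, h1⟩, rfl⟩
    · apply Nat.Coprime.coprime_dvd_left _ hcop
      rw [← hcard]
      exact Subgroup.card_subgroup_dvd_card _
  have hover : ptMap F A (IsScalarTower.toAlgHom F K W') d2 =
      ptMap F A (IsScalarTower.toAlgHom F K W') d1 := by
    rw [← hD, ← hd2, ptMap_comp]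
    rfl
  have hInv : IsInv (rhoT F A W' (W' ≃ₐ[K] W'))
      (tL F A (IsScalarTower.toAlgHom F K W')).toRingHom :=
    isInv_tensor _ (fun g l => g.commutes l) (fun x hx => by
      obtain ⟨y, hy⟩ := (IsGalois.mem_range_algebraMap_iff_fixed x).2 hx
      exact ⟨y, hy⟩)
  obtain ⟨σ, hσ⟩ := hInv.trans (isMaximal_pt d2) (isMaximal_pt d1) hover
  rw [gp_rhoT] at hσ
  refine ⟨AlgEquiv.liftNormal σ N, σ (incl F h β), ?_, ?_⟩
  · rw [← map_pow, hy]
    have h3 := AlgEquiv.liftNormal_commutes σ N (incl F h β)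
    exact h3.symm
  · rw [← hσ]
    exact hnp'.smul σ

end data

end P025H837
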