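import Vale.Agent.P025.R2.H837.Gal

/-!
# The Kummer step of Lemma G
-/

open TensorProduct P025H544 IntermediateField

namespace P025H837

lemma exists_root_mul {R : Type*} [Field R] {ζ : R} {ℓ : ℕ} (hℓ : ℓ ≠ 0)
    (hζ : IsPrimitiveRoot ζ ℓ) {x y : R} (h : y ^ ℓ = x ^ ℓ) : ∃ i : ℕ, y = ζ ^ i * x := by
  have := NeZero.mk hℓ
  by_cases hx : x = 0
  · subst hx
    rw [zero_pow hℓ] at h
    exact ⟨0, by rw [mul_zero]; exact pow_eq_zero_iff hℓ |>.1 h⟩
  · have h1 : (y / x) ^ ℓ = 1 := by rw [div_pow, h, div_self (pow_ne_zero _ hx)]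
    obtain ⟨i, -, hi⟩ := hζ.eq_pow_of_pow_eq_one h1
    exact ⟨i, by rw [hi, div_mul_cancel₀ _ hx]⟩

section fix

variable {K N : Type*} [Field K] [Field N] [Algebra K N]

/-- the automorphisms of `W` fixing `W'` -/
def fixG (W' W : IntermediateField K N) : Subgroup (W ≃ₐ[K] W) where
  carrier := {b | ∀ x : W, (x : N) ∈ W' → b x = x}
  mul_mem' := by
    intro a b ha hb x hx
    rw [AlgEquiv.mul_apply, hb x hx, ha x hx]
  one_mem' := fun x _ => rfl
  inv_mem' := by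
    intro a ha x hx
    have h1 : a x = x := ha x hx
    calc a⁻¹ x = a⁻¹ (a x) := by rw [h1]
      _ = x := by rw [← AlgEquiv.mul_apply, inv_mul_cancel]; rfl

lemma mem_fixG {W' W : IntermediateField K N} {b : W ≃ₐ[K] W} :
    b ∈ fixG W' W ↔ ∀ x : W, (x : N) ∈ W' → b x = x := Iff.rfl

/-- an automorphism fixing `W'` and the generators `S` is trivial -/
lemma eq_one_of_fix {W' W : IntermediateField K N} {S : Set N} (hW : W = W' ⊔ adjoin K S)
    {b : W ≃ₐ[K] W} (h1 : b ∈ fixG W' W) (h2 : ∀ x : W, (x : N) ∈ S → b x = x) : b = 1 := by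
  have hS : S ⊆ W := by
    intro x hx
    have h3 : x ∈ W' ⊔ adjoin K S := (le_sup_right : adjoin K S ≤ _) (subset_adjoin K S hx)
    rwa [← hW] at h3
  have hW' : W' ≤ W := le_sup_left.trans hW.ge
  apply eq_one_of_le_fixN (Subgroup.mem_zpowers b)
  have hz : ∀ x : W, b x = x → ∀ g ∈ Subgroup.zpowers b, g x = x := by
    intro x hx g hg
    obtain ⟨n, rfl⟩ := Subgroup.mem_zpowers_iff.1 hg
    have h7 : b ∈ MulAction.stabilizer (W ≃ₐ[K] W) x := hx
    exact (MulAction.stabilizer (W ≃ₐ[K] W) x).zpow_mem h7 n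
  refine hW.le.trans (sup_le ?_ ?_)
  · intro x hx
    exact mem_fixN.2 ⟨hW' hx, hz _ (h1 ⟨x, hW' hx⟩ hx)⟩
  · rw [adjoin_le_iff]
    intro x hx
    exact mem_fixN.2 ⟨hS hx, hz _ (h2 ⟨x, hS hx⟩ hx)⟩

/-- the Galois correspondence -/
lemma mem_of_fixG {W' W : IntermediateField K N} (h : W' ≤ W) [FiniteDimensional K W]
    [IsGalois K W] (x : W) (hx : ∀ b ∈ fixG W' W, b x = x) : (x : N) ∈ W' := by
  have h1 : x ∈ fixedField (fixingSubgroup (restrict h)) := by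
    intro g
    apply hx g.1
    intro z hz
    have h2 : z ∈ restrict h := (mem_restrict h z).2 hz
    exact g.2 ⟨z, h2⟩
  rw [IsGalois.fixedField_fixingSubgroup] at h1
  exact (mem_restrict h x).1 h1

lemma mem_of_fixes {W : IntermediateField K N} [FiniteDimensional K W] (H : Subgroup (W ≃ₐ[K] W))
    (g : W ≃ₐ[K] W) (hg : ∀ x : W, (x : N) ∈ fixN W H → g x = x) : g ∈ H := by
  have h1 : g ∈ fixingSubgroup (fixedField H) := by
    rw [IntermediateField.mem_fixingSubgroup_iff]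
    intro x hx
    apply hg
    exact (mem_lift x).2 hx
  rwa [fixingSubgroup_fixedField] at h1

end fix

section kum

variable {F F1 F2 K N : Type*} [Field F] [Field F1] [Field F2] [Algebra F F1]
  [Algebra F F2] [Field K] [Algebra F K] [Field N] [Algebra F N] [Algebra K N]
  [IsScalarTower F K N]

/-- the inclusion as a map over `F` -/
noncomputable def incl (F : Type*) {K N : Type*} [Field F] [Field K] [Algebra F K] [Field N]
    [Algebra F N] [Algebra K N] [IsScalarTower F K N]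
    {W' W : IntermediateField K N} (h : W' ≤ W) : W' →ₐ[F] W :=
  (inclusion h).restrictScalars F

lemma incl_apply {W' W : IntermediateField K N} (h : W' ≤ W) (x : W') :
    incl F h x = ⟨x, h x.2⟩ := rfl

lemma coe_incl {W' W : IntermediateField K N} (h : W' ≤ W) (x : W') :
    ((incl F h x : W) : N) = x := rfl

variable {W' W : IntermediateField K N} {S : Set N} {ℓ : ℕ} {ζ : F}

lemma pow_act (hℓ : ℓ ≠ 0) (hζ : IsPrimitiveRoot ζ ℓ) (y : W) (hy : (y : N) ^ ℓ ∈ W')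
    {b : W ≃ₐ[K] W} (hb : b ∈ fixG W' W) : ∃ i : ℕ, b y = algebraMap F W ζ ^ i * y := by
  have h1 : IsPrimitiveRoot (algebraMap F W ζ) ℓ :=
    hζ.map_of_injective (algebraMap F W).injective
  apply exists_root_mul hℓ h1
  rw [← map_pow]
  exact hb (y ^ ℓ) hy

lemma act_pow_mul (y : W) (a : W ≃ₐ[K] W) (i : ℕ) :
    a (algebraMap F W ζ ^ i * y) = algebraMap F W ζ ^ i * a y := by
  rw [map_mul, map_pow]
  congr 2
  rw [IsScalarTower.algebraMap_apply F K W, AlgEquiv.commutes]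

theorem kum_comm (hW : W = W' ⊔ adjoin K S) (hℓ : ℓ ≠ 0) (hζ : IsPrimitiveRoot ζ ℓ)
    (hS : ∀ y ∈ S, y ^ ℓ ∈ W') {a b : W ≃ₐ[K] W} (ha : a ∈ fixG W' W) (hb : b ∈ fixG W' W) :
    a * b = b * a := by
  have h1 : (b * a)⁻¹ * (a * b) = 1 := by
    apply eq_one_of_fix hW
      ((fixG W' W).mul_mem ((fixG W' W).inv_mem ((fixG W' W).mul_mem hb ha))
        ((fixG W' W).mul_mem ha hb))
    intro y hy
    obtain ⟨i, hi⟩ := pow_act hℓ hζ y (hS y hy) ha
    obtain ⟨j, hj⟩ := pow_act hℓ hζ y (hS y hy) hb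
    have h2 : (a * b) y = (b * a) y := by
      rw [AlgEquiv.mul_apply, AlgEquiv.mul_apply, hj, hi, act_pow_mul, act_pow_mul, hj, hi]
      ring
    rw [AlgEquiv.mul_apply, h2, ← AlgEquiv.mul_apply, inv_mul_cancel]
    rfl
  exact (inv_mul_eq_one.1 h1).symm

lemma smul_tL_incl {A : Type*} [Field A] [Algebra F A] (h : W' ≤ W) {b : W ≃ₐ[K] W}
    (hb : b ∈ fixG W' W) (x : A ⊗[F] W') : b • tL F A (incl F h) x = tL F A (incl F h) x := by
  induction x with
  | zero => rw [map_zero, smul_zero]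
  | add x y hx hy => rw [map_add, smul_add, hx, hy]
  | tmul a l =>
    rw [tL_tmul, smul_tmul_def]
    congr 1
    exact hb (incl F h l) l.2

/-- the group acts freely on `V(W)` -/
theorem kum_free [Algebra.IsAlgebraic F K] [FiniteDimensional K W] (hW : W = W' ⊔ adjoin K S) (h : W' ≤ W)
    (hℓ : ℓ ≠ 0) (hζ : IsPrimitiveRoot ζ ℓ)
    (hS : ∀ y ∈ S, ∃ m : W', (m : N) = y ^ ℓ ∧ ∃ x : F1 ⊗[F] W', x ^ ℓ = (1 : F1) ⊗ₜ[F] m)
    {b : W ≃ₐ[K] W} (hb : b ∈ fixG W' W) (v : Pt F F1 W) (hv : b • v = v) : b = 1 := by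
  apply eq_one_of_fix hW hb
  intro y hy
  have hAF : Algebra.IsAlgebraic F W := Algebra.IsAlgebraic.trans F K W
  obtain ⟨m, hm, x, hx⟩ := hS y hy
  have hmax : v.asIdeal.IsMaximal := isMaximal_pt v
  let k := (F1 ⊗[F] W) ⧸ v.asIdeal
  let _ : Field k := Ideal.Quotient.field v.asIdeal
  let mk : (F1 ⊗[F] W) →+* k := Ideal.Quotient.mk v.asIdeal
  let c : F →+* k := mk.comp (algebraMap F (F1 ⊗[F] W))
  have h1 : IsPrimitiveRoot (c ζ) ℓ := hζ.map_of_injective c.injective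
  have h2 : (mk ((1 : F1) ⊗ₜ[F] y)) ^ ℓ = (mk (tL F F1 (incl F h) x)) ^ ℓ := by
    rw [← map_pow, ← map_pow, ← map_pow, hx, tL_tmul, Algebra.TensorProduct.tmul_pow, one_pow]
    congr 2
    apply Subtype.ext
    rw [coe_incl, hm]
    rfl
  obtain ⟨i, hi⟩ := exists_root_mul hℓ h1 h2
  have h3 : (1 : F1) ⊗ₜ[F] y - algebraMap F (F1 ⊗[F] W) ζ ^ i * tL F F1 (incl F h) x
      ∈ v.asIdeal := by
    apply Ideal.Quotient.eq.1
    rw [map_mul, map_pow]
    exact hi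
  have h4 : b • ((1 : F1) ⊗ₜ[F] y - algebraMap F (F1 ⊗[F] W) ζ ^ i * tL F F1 (incl F h) x)
      ∈ v.asIdeal := by
    have h5 := (smul_mem_smul_pt b v _).2 h3
    rwa [hv] at h5
  have h6 : b • (algebraMap F (F1 ⊗[F] W) ζ) = algebraMap F (F1 ⊗[F] W) ζ := by
    have h7 : algebraMap F (F1 ⊗[F] W) ζ = (1 : F1) ⊗ₜ[F] (algebraMap F W ζ) := by
      rw [Algebra.TensorProduct.algebraMap_apply, Algebra.algebraMap_eq_smul_one,
        Algebra.algebraMap_eq_smul_one, smul_tmul]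
    rw [h7, smul_tmul_def]
    congr 1
    change b (algebraMap F W ζ) = _
    rw [IsScalarTower.algebraMap_apply F K W, AlgEquiv.commutes]
  rw [smul_sub, smul_mul', smul_pow', h6, smul_tL_incl h hb, smul_tmul_def] at h4
  have h8 := v.asIdeal.sub_mem h4 h3
  rw [sub_sub_sub_cancel_right, ← TensorProduct.tmul_sub] at h8
  by_contra hne
  exact one_tmul_notMem (sub_ne_zero.2 hne) v h8

/-- each point of `D(W)` has a nontrivial stabilizer -/
theorem kum_stab [Algebra.IsAlgebraic F K] [FiniteDimensional K W] [IsGalois K W] (h : W' ≤ W) (hSW : S ⊆ W)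
    (hS : ∀ d : Pt F F2 W', ∃ y ∈ S, ∃ m : W', (m : N) = y ^ ℓ ∧ NotPow ℓ F F2 m d)
    (d : Pt F F2 W) : ∃ b ∈ fixG W' W, b ≠ 1 ∧ b • d = d := by
  classical
  have hAF : Algebra.IsAlgebraic F W := Algebra.IsAlgebraic.trans F K W
  by_contra hcon
  push Not at hcon
  have hInv : IsInv (rhoT F F2 W (fixG W' W)) (tL F F2 (incl F h)).toRingHom := by
    apply isInv_tensor
    · intro g l
      exact g.2 (incl F h l) l.2
    · intro x hx
      have h1 : (x : N) ∈ W' := mem_of_fixG h x fun b hb => hx ⟨b, hb⟩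
      exact ⟨⟨x, h1⟩, rfl⟩
  have hst : stab (rhoT F F2 W (fixG W' W)) d = ⊥ := by
    rw [eq_bot_iff]
    intro g hg
    rw [Subgroup.mem_bot]
    by_contra hne
    have h1 : g.1 • d = d := hg
    exact hcon g.1 g.2 (fun h2 => hne (Subtype.ext h2)) h1
  obtain ⟨y, hy, m, hm, hnp⟩ := hS (ptMap F F2 (incl F h) d)
  obtain ⟨a, ha⟩ := hInv.trace (isMaximal_pt d) ((1 : F2) ⊗ₜ[F] (⟨y, hSW hy⟩ : W)) (by
    intro g hg
    rw [hst, Subgroup.mem_bot] at hg
    rw [hg, map_one, RingAut.one_apply, sub_self]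
    exact d.asIdeal.zero_mem)
  rw [hst, Subgroup.card_bot, Nat.cast_one, one_mul] at ha
  apply hnp a
  rw [mem_ptMap, map_sub, map_pow, tL_tmul]
  have h3 : (1 : F2) ⊗ₜ[F] (incl F h m) = ((1 : F2) ⊗ₜ[F] (⟨y, hSW hy⟩ : W)) ^ ℓ := by
    rw [Algebra.TensorProduct.tmul_pow, one_pow]
    congr 1
    apply Subtype.ext
    rw [coe_incl, hm]
    rfl
  rw [h3]
  have h4 : tL F F2 (incl F h) a - (1 : F2) ⊗ₜ[F] (⟨y, hSW hy⟩ : W) ∈ d.asIdeal := ha
  obtain ⟨c, hc⟩ := sub_dvd_pow_sub_pow (tL F F2 (incl F h) a) ((1 : F2) ⊗ₜ[F] (⟨y, hSW hy⟩ : W)) ℓ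
  rw [hc]
  exact d.asIdeal.mul_mem_right _ h4

end kum

end P025H837
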