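import Vale.Agent.P025.R2.H837.Deg
import Vale.Agent.P025.R2.H628.Amb
import Vale.Agent.P025.R2.H628.Rad

/-!
# Lemma G from abstract covers, in an ambient field
-/

open TensorProduct P025H544 IntermediateField Vale.Agent.P019P P025H492 P025H628 P025H373

namespace P025H837

universe u

section transport

variable {F A L L' : Type*} [Field F] [Field A] [Field L] [Field L'] [Algebra F A] [Algebra F L]
  [Algebra F L']

/-- transport of `NotPow` along an isomorphism -/
lemma NotPow.equiv {l : ℕ} {β : L} {P : Pt F A L} (h : NotPow l F A β P) (e : L ≃ₐ[F] L') :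
    NotPow l F A (e β) (ptMap F A (e.symm : L' →ₐ[F] L) P) := by
  intro z hz
  rw [mem_ptMap, map_sub, map_pow, tL_tmul] at hz
  apply h (tL F A (e.symm : L' →ₐ[F] L) z)
  have h1 : (e.symm : L' →ₐ[F] L) (e β) = β := e.symm_apply_apply β
  rwa [h1] at hz

end transport

section embed

variable {F A1 A2 K L N : Type*} [Field F] [Field A1] [Field A2] [Algebra F A1] [Algebra F A2]
  [Field K] [Algebra F K] [Field L] [Algebra F L] [Algebra K L] [IsScalarTower F K L]
  [Field N] [Algebra F N] [Algebra K N] [IsScalarTower F K N]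

/-- the data of a cover, transported into `N` -/
lemma exists_data (e : L →ₐ[K] N) {l : ℕ} {β : L} {x : A1 ⊗[F] L} (hx : x ^ l = 1 ⊗ₜ β)
    {D : Pt F A2 L} (hnp : NotPow l F A2 β D) :
    (∃ x' : A1 ⊗[F] e.fieldRange, x' ^ l = 1 ⊗ₜ (e.equivFieldRange β)) ∧
    ∃ D' : Pt F A2 e.fieldRange,
      ptMap F A2 (IsScalarTower.toAlgHom F K e.fieldRange) D' =
        ptMap F A2 (IsScalarTower.toAlgHom F K L) D ∧
      NotPow l F A2 (e.equivFieldRange β) D' := by
  let E : L ≃ₐ[F] e.fieldRange := e.equivFieldRange.restrictScalars F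
  refine ⟨⟨tL F A1 (E : L →ₐ[F] e.fieldRange) x, ?_⟩,
    ptMap F A2 (E.symm : e.fieldRange →ₐ[F] L) D, ?_, hnp.equiv E⟩
  · rw [← map_pow, hx, tL_tmul]
    rfl
  · rw [ptMap_comp]
    congr 1
    ext a
    change e.equivFieldRange.symm (algebraMap K e.fieldRange a) = algebraMap K L a
    rw [AlgEquiv.commutes]

end embed

section rns

variable {C : Type u} [NontriviallyNormedField C] [IsUltrametricDist C] [CompleteSpace C]
  [IsAlgClosed C] [CharZero C] {K N : Type u} [Field K] [Algebra C K] [Algebra (RatFunc C) K]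
  [IsScalarTower C (RatFunc C) K] [CFF C K] [FiniteDimensional (RatFunc C) K] [Field N]
  [Algebra C N] [Algebra K N] [IsScalarTower C K N] [Algebra (RatFunc C) N]
  [IsScalarTower (RatFunc C) K N]

/-- Lemma G from abstract covers. -/
theorem lemG_rns (hamb : Amb C K N) (c : Cˣ) (hK1 : IsField (F1r C c ⊗[RatFunc C] K)) {l m : ℕ}
    (hl : l.Prime) (hlm : Nat.Coprime l m)
    (hd : ∀ d : Pt (RatFunc C) (F2r C c) K, ∃ (L : Type u) (_ : Field L) (_ : Algebra C L)
      (_ : Algebra K L) (_ : Algebra (RatFunc C) L) (_ : IsScalarTower C K L)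
      (_ : IsScalarTower (RatFunc C) K L) (_ : CFF C L) (_ : FiniteDimensional K L),
      IsCov C K L ∧ (∃ k, Module.finrank K L ∣ m ^ k) ∧
      ∃ β : L, β ≠ 0 ∧ (∀ P : Plk C L, (l : ℤ) ∣ ord P β) ∧
        (∃ x : F1r C c ⊗[RatFunc C] L, x ^ l = 1 ⊗ₜ β) ∧
        ∃ d' : Pt (RatFunc C) (F2r C c) L,
          ptMap (RatFunc C) (F2r C c) (IsScalarTower.toAlgHom (RatFunc C) K L) d' = d ∧
          NotPow l (RatFunc C) (F2r C c) β d') :
    ∃ (Z : IntermediateField K N) (_ : FiniteDimensional K Z)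
      (v : Pt (RatFunc C) (F1r C c) Z),
      Function.Bijective (fun a : F1r C c ⊗[RatFunc C] K => Ideal.Quotient.mk v.asIdeal
        (tL (RatFunc C) (F1r C c) (IsScalarTower.toAlgHom (RatFunc C) K Z) a)) ∧
      (∀ e e' : Pt (RatFunc C) (F0r C c) Z,
        edge (RatFunc C) (F1r C c) (F0r C c) Z e = v →
        edge (RatFunc C) (F1r C c) (F0r C c) Z e' = v →
        Relation.ReflTransGen (Step (RatFunc C) (F1r C c) (F2r C c) (F0r C c) Z v)
          (edge (RatFunc C) (F2r C c) (F0r C c) Z e)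
          (edge (RatFunc C) (F2r C c) (F0r C c) Z e')) ∧
      ∃ W : IntermediateField K N, Z ≤ W ∧ FiniteDimensional K W ∧ IsGalois K W ∧
        (∃ k, Module.finrank K W ∣ (m * l) ^ k) ∧ Group.IsSolvable (W ≃ₐ[K] W) := by
  classical
  have hgal : IsGalois K N := hamb.gal
  -- transport into `N`
  have key : ∀ d : Pt (RatFunc C) (F2r C c) K, ∃ (L : IntermediateField K N)
      (_ : FiniteDimensional K L) (_ : IsGalois K L), (∃ k, Module.finrank K L ∣ m ^ k) ∧
      Group.IsSolvable (L ≃ₐ[K] L) ∧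
      ∃ (β : L) (_ : β ≠ 0) (y : N) (_ : y ^ l = β) (x : F1r C c ⊗[RatFunc C] L)
        (_ : x ^ l = 1 ⊗ₜ β) (D : Pt (RatFunc C) (F2r C c) L),
        ptMap (RatFunc C) (F2r C c) (IsScalarTower.toAlgHom (RatFunc C) K L) D = d ∧
        NotPow l (RatFunc C) (F2r C c) β D := by
    intro d
    obtain ⟨L, iL1, iL2, iL3, iL4, iL5, iL6, iL7, iL8, hcov, ⟨k, hk⟩, β, hβ0, hβ, ⟨x, hx⟩, D, hD,
      hnp⟩ := hd d
    obtain ⟨e⟩ := hamb.emb L hcov
    let E : L ≃ₐ[K] e.fieldRange := e.equivFieldRange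
    have hfin : FiniteDimensional K e.fieldRange := E.toLinearEquiv.finiteDimensional
    have hgalL : IsGalois K L := hcov.gal
    have hgal' : IsGalois K e.fieldRange := IsGalois.of_algEquiv E
    have hcff : CFF C e.fieldRange := cff_of_finite (K := K)
    obtain ⟨⟨x', hx'⟩, D', hD', hnp'⟩ := exists_data (F := RatFunc C) e hx hnp
    have hβ' : E β ≠ 0 := by
      intro h
      apply hβ0
      exact E.injective (by rw [h, map_zero])
    obtain ⟨y, hy⟩ := hamb.kum e.fieldRange l hl.pos (E β) hβ' (by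
      intro P
      have h1 := ord_tr (E.restrictScalars C) (tr (E.restrictScalars C).symm P) β
      rw [tr_tr_symm] at h1
      have h2 : ord P (E β) = ord (tr (E.restrictScalars C).symm P) β := h1
      rw [h2]
      exact hβ _)
    refine ⟨e.fieldRange, hfin, hgal', ⟨k, ?_⟩, ?_, E β, hβ', y, hy, x', hx', D', ?_, hnp'⟩
    · rw [← E.toLinearEquiv.finrank_eq]
      exact hk
    · have h2 := hcov.sol
      exact Group.isSolvable_of_surjective (f := (AlgEquiv.autCongr E).toMonoidHom)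
        (AlgEquiv.autCongr E).surjective
    · rw [hD', hD]
  choose L hLf hLg hLd hLs β hβ0 y hy x hx D hD hnp using key
  have hfr : CharZero (RatFunc C) :=
    charZero_of_injective_algebraMap (algebraMap C (RatFunc C)).injective
  obtain ⟨ζ, hζ⟩ : ∃ ζ : C, IsPrimitiveRoot ζ l := by
    have hl0 : NeZero (l : C) := ⟨Nat.cast_ne_zero.2 hl.ne_zero⟩
    exact HasEnoughRootsOfUnity.exists_primitiveRoot C l
  have hζ' : IsPrimitiveRoot (algebraMap C (RatFunc C) ζ) l :=
    hζ.map_of_injective (algebraMap C (RatFunc C)).injective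
  obtain ⟨Z, hZ, v, h1, h2, W, h3, h4, h5, h6, h7⟩ :=
    lemG_exists_deg (F0 := F0r C c) hK1 hl hlm hζ' L hLd β hβ0 y hy x hx D hD hnp
  exact ⟨Z, hZ, v, h1, h2, W, h3, h4, h5, h6, h7 hLs⟩

end rns

end P025H837
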