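import Vale.Agent.P025.R2.H837.Data

/-!
# Solvability of the Galois group of a compositum
-/

open IntermediateField

namespace P025H837

lemma isSolvable_of_separating {G ι : Type*} [Group G] [Finite ι] {H : ι → Type*}
    [∀ i, Group (H i)] (φ : ∀ i, G →* H i) (h : ∀ g, (∀ i, φ i g = 1) → g = 1)
    (hH : ∀ i, Group.IsSolvable (H i)) : Group.IsSolvable G := by
  classical
  have := Fintype.ofFinite ι
  choose n hn using fun i => (hH i).solvable
  refine ⟨⟨Finset.univ.sup n, ?_⟩⟩
  rw [eq_bot_iff]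
  intro g hg
  rw [Subgroup.mem_bot]
  apply h
  intro i
  have h1 : g ∈ derivedSeries G (n i) :=
    derivedSeries_antitone G (Finset.le_sup (f := n) (Finset.mem_univ i)) hg
  have h2 : φ i g ∈ derivedSeries (H i) (n i) :=
    map_derivedSeries_le_derivedSeries (φ i) (n i) (Subgroup.mem_map_of_mem (φ i) h1)
  rw [hn i, Subgroup.mem_bot] at h2
  exact h2

section

variable {K N : Type*} [Field K] [Field N] [Algebra K N]

/-- restriction of automorphisms of `W` to a normal `W' ≤ W` -/
noncomputable def resG {W' W : IntermediateField K N} (h : W' ≤ W) [Normal K W'] :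
    (W ≃ₐ[K] W) →* (W' ≃ₐ[K] W') :=
  haveI : Normal K (restrict h) := Normal.of_algEquiv (restrictAlgEquiv h)
  (AlgEquiv.autCongr (restrictAlgEquiv h)).symm.toMonoidHom.comp
    (AlgEquiv.restrictNormalHom (restrict h))

lemma coe_resG {W' W : IntermediateField K N} (h : W' ≤ W) [Normal K W'] (g : W ≃ₐ[K] W)
    (x : W') : ((resG h g x : W') : N) = g ⟨x, h x.2⟩ := by
  have hn : Normal K (restrict h) := Normal.of_algEquiv (restrictAlgEquiv h)
  have h1 := AlgEquiv.restrictNormalHom_apply (restrict h) g (restrictAlgEquiv h x)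
  have h2 : resG h g x = (restrictAlgEquiv h).symm
      (AlgEquiv.restrictNormalHom (restrict h) g (restrictAlgEquiv h x)) := rfl
  have h3 : ∀ z : restrict h, (((restrictAlgEquiv h).symm z : W') : N) = ((z : W) : N) := by
    intro z
    obtain ⟨u, rfl⟩ := (restrictAlgEquiv h).surjective z
    rw [AlgEquiv.symm_apply_apply]
    rfl
  rw [h2, h3, h1]
  rfl

lemma fix_of_resG {W' W : IntermediateField K N} (h : W' ≤ W) [Normal K W'] {g : W ≃ₐ[K] W}
    (hg : resG h g = 1) : g ∈ fixG W' W := by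
  intro x hx
  apply Subtype.ext
  have h1 := coe_resG h g ⟨x, hx⟩
  rw [hg] at h1
  exact h1.symm

/-- an automorphism of a compositum which is trivial on all factors is trivial -/
lemma eq_one_of_forall_resG {ι : Type*} (L : ι → IntermediateField K N)
    {W : IntermediateField K N} (hW : W = ⨆ i, L i) (hle : ∀ i, L i ≤ W) {g : W ≃ₐ[K] W}
    (hg : ∀ i, g ∈ fixG (L i) W) : g = 1 := by
  apply eq_one_of_le_fixN (Subgroup.mem_zpowers g)
  refine hW.le.trans (iSup_le fun i => ?_)
  intro x hx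
  rw [mem_fixN]
  refine ⟨hle i hx, ?_⟩
  intro g' hg'
  obtain ⟨n, rfl⟩ := Subgroup.mem_zpowers_iff.1 hg'
  have h7 : g ∈ MulAction.stabilizer (W ≃ₐ[K] W) (⟨x, hle i hx⟩ : W) := hg i _ hx
  exact (MulAction.stabilizer (W ≃ₐ[K] W) (⟨x, hle i hx⟩ : W)).zpow_mem h7 n

lemma isSolvable_iSup {ι : Type*} [Finite ι] (L : ι → IntermediateField K N)
    (hn : ∀ i, Normal K (L i)) {W : IntermediateField K N} (hW : W = ⨆ i, L i)
    (hs : ∀ i, Group.IsSolvable (L i ≃ₐ[K] L i)) : Group.IsSolvable (W ≃ₐ[K] W) := by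
  have hle : ∀ i, L i ≤ W := fun i => (le_iSup L i).trans hW.ge
  exact isSolvable_of_separating (fun i => resG (hle i))
    (fun g hg => eq_one_of_forall_resG L hW hle fun i => fix_of_resG (hle i) (hg i)) hs

lemma isSolvable_ext {W' W : IntermediateField K N} (h : W' ≤ W) [Normal K W']
    (hcomm : ∀ a ∈ fixG W' W, ∀ b ∈ fixG W' W, a * b = b * a)
    (hs : Group.IsSolvable (W' ≃ₐ[K] W')) : Group.IsSolvable (W ≃ₐ[K] W) := by
  have h1 : Group.IsSolvable (fixG W' W) := Group.isSolvable_of_comm fun a b =>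
    Subtype.ext (hcomm a.1 a.2 b.1 b.2)
  refine Group.isSolvable_of_ker_le_range (fixG W' W).subtype (resG h) ?_
  intro g hg
  rw [Subgroup.range_subtype]
  exact fix_of_resG h hg

end

end P025H837
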