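import Vale.Agent.P025.R2.H544.Defs
import Vale.Agent.P025.R2.H837.Act

/-!
# Galois groups acting on the points of `A ⊗[F] L`
-/

open TensorProduct P025H544

namespace P025H837

universe u v w

section points

variable {F A L : Type*} [Field F] [Field A] [Field L] [Algebra F A] [Algebra F L]

/-- the points are maximal ideals -/
theorem isMaximal_pt [Algebra.IsAlgebraic F L] (v : Pt F A L) : v.asIdeal.IsMaximal := by
  have : Algebra.IsIntegral F L := inferInstance
  have h1 : Algebra.IsIntegral A (A ⊗[F] L) := inferInstance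
  have h2 : (v.asIdeal.comap (algebraMap A (A ⊗[F] L))).IsMaximal := by
    have h3 : (v.asIdeal.comap (algebraMap A (A ⊗[F] L))) = ⊥ := by
      rcases Ideal.eq_bot_or_top (v.asIdeal.comap (algebraMap A (A ⊗[F] L))) with h4 | h4
      · exact h4
      · exact absurd h4 (Ideal.comap_ne_top _ v.2.ne_top)
    rw [h3]
    exact Ideal.bot_isMaximal
  exact Ideal.isMaximal_of_isIntegral_of_isMaximal_comap _ h2

theorem tL_algebraMap {L' : Type*} [Field L'] [Algebra F L'] (f : L →ₐ[F] L') :
    (tL F A f).toRingHom.comp (algebraMap A (A ⊗[F] L)) = algebraMap A (A ⊗[F] L') :=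
  (tL F A f).comp_algebraMap

theorem tL_injective {L' : Type*} [Field L'] [Algebra F L'] (f : L →ₐ[F] L') :
    Function.Injective (tL F A f) := by
  have h1 : Function.Injective f := f.toRingHom.injective
  exact Module.Flat.lTensor_preserves_injective_linearMap (M := A) f.toLinearMap h1

/-- lying over -/
theorem ptMap_surjective {L' : Type*} [Field L'] [Algebra F L'] (f : L →ₐ[F] L')
    [Algebra.IsAlgebraic F L'] : Function.Surjective (ptMap F A f) := by
  have hint : (tL F A f).toRingHom.IsIntegral := by
    have h1 : Algebra.IsIntegral A (A ⊗[F] L') := inferInstance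
    have h2 : (algebraMap A (A ⊗[F] L')).IsIntegral := algebraMap_isIntegral_iff.2 h1
    rw [← tL_algebraMap f] at h2
    exact RingHom.IsIntegral.tower_top _ _ h2
  exact hint.comap_surjective (tL_injective f)

end points

section act

variable {F A L L' : Type*} [Field F] [Field A] [Field L] [Field L'] [Algebra F A] [Algebra F L]
  [Algebra F L'] {G : Type*} [Group G] [MulSemiringAction G L'] [SMulCommClass G F L']

variable (F A L' G) in
/-- the action on the tensor product as a homomorphism -/
noncomputable def rhoT : G →* ((A ⊗[F] L') ≃+* (A ⊗[F] L')) :=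
  MulSemiringAction.toRingAut G (A ⊗[F] L')

lemma rhoT_apply (g : G) (x : A ⊗[F] L') : rhoT F A L' G g x = g • x := rfl

lemma rhoT_tmul (g : G) (a : A) (l : L') : rhoT F A L' G g (a ⊗ₜ l) = a ⊗ₜ (g • l) :=
  smul_tmul_def F A L' G g a l

lemma gp_rhoT (g : G) (P : Pt F A L') : gp (rhoT F A L' G) g P = g • P := rfl

/-- the invariants of the tensor product -/
theorem isInv_tensor (f : L →ₐ[F] L') (hfix : ∀ (g : G) (l : L), g • f l = f l)
    (hinv : ∀ x : L', (∀ g : G, g • x = x) → ∃ l, f l = x) :
    IsInv (rhoT F A L' G) (tL F A f).toRingHom where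
  fix g a := by
    change g • (tL F A f a) = tL F A f a
    induction a with
    | zero => rw [map_zero, smul_zero]
    | add x y hx hy => rw [map_add, smul_add, hx, hy]
    | tmul a l => rw [tL_tmul, smul_tmul_def, hfix]
  surj x hx := by
    classical
    let b := Module.Basis.ofVectorSpace F A
    let e : A ⊗[F] L' ≃ₗ[F] _ →₀ L' := TensorProduct.equivFinsuppOfBasisLeft b
    have hcoord : ∀ (g : G) (y : A ⊗[F] L') (i), e (g • y) i = g • e y i := by
      intro g y i
      induction y with
      | zero => rw [smul_zero, map_zero, Finsupp.zero_apply, smul_zero]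
      | add x y hx hy => rw [smul_add, map_add, Finsupp.add_apply, hx, hy, map_add,
          Finsupp.add_apply, smul_add]
      | tmul a l =>
        rw [smul_tmul_def]
        simp only [e, TensorProduct.equivFinsuppOfBasisLeft_apply_tmul_apply]
        exact (smul_comm g _ l).symm
    have h1 : ∀ i, ∃ l, f l = e x i := by
      intro i
      apply hinv
      intro g
      rw [← hcoord, show g • x = x from hx g]
    choose l hl using h1
    refine ⟨(e x).sum fun i _ => b i ⊗ₜ l i, ?_⟩
    change tL F A f _ = x
    rw [Finsupp.sum, map_sum]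
    have h2 : x = (e x).sum fun i n => b i ⊗ₜ n := by
      rw [← TensorProduct.equivFinsuppOfBasisLeft_symm_apply]
      exact (e.symm_apply_apply x).symm
    conv_rhs => rw [h2, Finsupp.sum]
    refine Finset.sum_congr rfl fun i _ => ?_
    rw [tL_tmul, hl]

end act

section functorial

variable {F A L L' L'' : Type*} [Field F] [Field A] [Field L] [Field L'] [Field L''] [Algebra F A]
  [Algebra F L] [Algebra F L'] [Algebra F L'']

lemma tL_comp (f : L →ₐ[F] L') (g : L' →ₐ[F] L'') (x : A ⊗[F] L) :
    tL F A g (tL F A f x) = tL F A (g.comp f) x := by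
  induction x with
  | zero => simp only [map_zero]
  | add x y hx hy => simp only [map_add, hx, hy]
  | tmul a l => simp only [tL_tmul, AlgHom.comp_apply]

lemma ptMap_comp (f : L →ₐ[F] L') (g : L' →ₐ[F] L'') (x : Pt F A L'') :
    ptMap F A f (ptMap F A g x) = ptMap F A (g.comp f) x := by
  apply PrimeSpectrum.ext
  ext a
  change tL F A g (tL F A f a) ∈ x.asIdeal ↔ tL F A (g.comp f) a ∈ x.asIdeal
  rw [tL_comp]

lemma mem_ptMap (f : L →ₐ[F] L') (x : Pt F A L') (a : A ⊗[F] L) :
    a ∈ (ptMap F A f x).asIdeal ↔ tL F A f a ∈ x.asIdeal := Iff.rfl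

variable {B : Type*} [Field B] [Algebra F B] [Algebra A B] [IsScalarTower F A B]

lemma mem_edge (e : Pt F B L) (a : A ⊗[F] L) :
    a ∈ (edge F A B L e).asIdeal ↔ bc F A B L a ∈ e.asIdeal := Iff.rfl

lemma bc_tL (f : L →ₐ[F] L') (x : A ⊗[F] L) :
    bc F A B L' (tL F A f x) = tL F B f (bc F A B L x) := by
  induction x with
  | zero => simp only [map_zero]
  | add x y hx hy => simp only [map_add, hx, hy]
  | tmul a l => simp only [tL_tmul, bc_tmul]

lemma edge_ptMap (f : L →ₐ[F] L') (e : Pt F B L') :
    edge F A B L (ptMap F B f e) = ptMap F A f (edge F A B L' e) := by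
  apply PrimeSpectrum.ext
  ext a
  rw [mem_edge, mem_ptMap, mem_ptMap, mem_edge, bc_tL]

lemma bc_smul {G : Type*} [Group G] [MulSemiringAction G L] [SMulCommClass G F L] (g : G)
    (x : A ⊗[F] L) : bc F A B L (g • x) = g • bc F A B L x := by
  induction x with
  | zero => rw [smul_zero, map_zero, smul_zero]
  | add x y hx hy => rw [smul_add, map_add, hx, hy, map_add, smul_add]
  | tmul a l => rw [smul_tmul_def, bc_tmul, bc_tmul, smul_tmul_def]

lemma edge_smul {G : Type*} [Group G] [MulSemiringAction G L] [SMulCommClass G F L] (g : G)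
    (e : Pt F B L) : edge F A B L (g • e) = g • edge F A B L e := by
  apply PrimeSpectrum.ext
  ext a
  rw [mem_edge, mem_smul_pt, mem_smul_pt, mem_edge, bc_smul]

end functorial

end P025H837
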